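import Mathlib

/-!
Definitions for the finite lattice representation problem:
finite algebras, their congruence lattices, representable lattices.
-/
namespace Vale.Agent.Lib.P183

/-- A finitary operation on `A`: an arity `n` and a total function `Aⁿ → A`. -/
def FinOp (A : Type) : Type := Σ n : ℕ, (Fin n → A) → A

/-- An equivalence relation `s` on `A` is a congruence of the algebra `(A, ops)` when it is
compatible with every operation in the list `ops`. -/
def IsCong {A : Type} (ops : List (FinOp A)) (s : Setoid A) : Prop :=
  ∀ f ∈ ops, ∀ x y : Fin f.1 → A, (∀ i, s.r (x i) (y i)) → s.r (f.2 x) (f.2 y)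

/-- `L` is representable: it is order isomorphic to the lattice of all congruences,
ordered by inclusion, of some finite algebra: a nonempty finite set `A` with a finite list
of finitary operations. -/
def Representable (L : Type) [PartialOrder L] : Prop :=
  ∃ (A : Type) (_ : Finite A) (_ : Nonempty A) (ops : List (FinOp A)),
    Nonempty (L ≃o {s : Setoid A // IsCong ops s})

/-- `L` is isomorphic to an interval `[H, G]` of the subgroup lattice of a finite group `G`. -/
def IsGroupInterval (L : Type) [PartialOrder L] : Prop :=
  ∃ (G : Type) (_ : Group G) (_ : Finite G) (H : Subgroup G), Nonempty (L ≃o Set.Ici H)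

/-- The seven elements of the lattice `L7`. -/
inductive L7 : Type
  | bot | p | q | r | s | x | top
  deriving DecidableEq

instance : Fintype L7 where
  elems := {L7.bot, L7.p, L7.q, L7.r, L7.s, L7.x, L7.top}
  complete := fun a => by cases a <;> decide

/-- The order of `L7`: `bot` is the least element, `top` the greatest, and the only other
strict relations are `q < r`, `q < s`, `p < s`. So `{bot, p, q, r, s, top}` is the product of a
two-element and a three-element chain and `x` is a further element that is a complement of all
five others. -/
def L7.le (a b : L7) : Prop :=
  a = L7.bot ∨ b = L7.top ∨ a = b ∨ (a = L7.q ∧ b = L7.r) ∨ (a = L7.q ∧ b = L7.s) ∨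
    (a = L7.p ∧ b = L7.s)

instance : DecidableRel L7.le := fun a b => by unfold L7.le; infer_instance

instance : PartialOrder L7 where
  le := L7.le
  le_refl := by decide
  le_trans := by decide
  le_antisymm := by decide

end Vale.Agent.Lib.P183
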