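import Mathlib

/-!
A concrete model of the field with 64 elements: natural numbers below 64 read as bit vectors,
that is polynomials over the field with two elements, modulo `X^6 + X + 1`. Addition is
bitwise xor. Multiplication goes through discrete logarithm tables for the generator `2`.
-/
namespace Vale.Agent.Lib.P183

/-- Powers of the generator: `expTab >>> (6 * k) &&& 63` is the `k`-th power, for `k < 126`,
and is `0` for `k ≥ 126`. -/
def expTab : Nat := 200056899117130072747574117421561899234971614266495211707131020435133799245646192885205032447800083252880780256503140027630173649752369445241863533736426910888259667562043128243303990680837317433004517838448502127809326147977345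

/-- Discrete logarithms: `logTab >>> (8 * a) &&& 255` is the logarithm of `a ≠ 0` and is
`200` for `a = 0`. -/
def logTab : Nat := 3049415151751417393373114404596429138578050464854402598567365066116652208744186674147758320672317311767507985266932019464494946205625893926936181915844808

/-- Discrete logarithm table lookup. -/
def lg (a : Nat) : Nat := Nat.land (Nat.shiftRight logTab (Nat.mul 8 a)) 255

/-- Multiplication in the field with 64 elements, on natural numbers below 64. -/
def mulN (a b : Nat) : Nat :=
  Nat.land (Nat.shiftRight expTab (Nat.mul 6 (Nat.add (lg a) (lg b)))) 63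

/-- `allR p d lo` checks `p i = true` for all `lo ≤ i < lo + 2 ^ d`, by binary splitting. -/
noncomputable def allR (p : Nat → Bool) (d : Nat) : Nat → Bool :=
  Nat.rec (fun lo => p lo)
    (fun d ih lo => and (ih lo) (ih (Nat.add lo (Nat.pow 2 d)))) d

theorem allR_spec (p : Nat → Bool) (d lo : Nat) (h : allR p d lo = true) :
    ∀ i, lo ≤ i → i < lo + 2 ^ d → p i = true := by
  induction d generalizing lo with
  | zero =>
    intro i h1 h2
    have : i = lo := by omega
    subst this
    exact h
  | succ d ih =>
    intro i h1 h2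
    have h' : (allR p d lo && allR p d (lo + 2 ^ d)) = true := h
    rw [Bool.and_eq_true] at h'
    by_cases hi : i < lo + 2 ^ d
    · exact ih lo h'.1 i h1 hi
    · refine ih (lo + 2 ^ d) h'.2 i (by omega) ?_
      rw [pow_succ] at h2
      omega

theorem allR_below (p : Nat → Bool) (d : Nat) (h : allR p d 0 = true) :
    ∀ i, i < 2 ^ d → p i = true := fun i hi => allR_spec p d 0 h i (Nat.zero_le _) (by omega)

theorem mulN_lt (a b : Nat) : mulN a b < 64 :=
  Nat.and_lt_two_pow (n := 6) _ (by norm_num)

theorem xor_lt (a b : Nat) (ha : a < 64) (hb : b < 64) : Nat.xor a b < 64 :=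
  Nat.xor_lt_two_pow (n := 6) ha hb

/-- carrier of the field with 64 elements -/
structure F64 where
  val : Nat
  lt : val < 64

namespace F64

@[ext] theorem ext' {a b : F64} (h : a.val = b.val) : a = b := by
  cases a; cases b; simp_all

instance : Add F64 := ⟨fun a b => ⟨Nat.xor a.val b.val, xor_lt _ _ a.lt b.lt⟩⟩
instance : Mul F64 := ⟨fun a b => ⟨mulN a.val b.val, mulN_lt _ _⟩⟩
instance : Zero F64 := ⟨⟨0, by decide⟩⟩
instance : One F64 := ⟨⟨1, by decide⟩⟩
instance : Neg F64 := ⟨fun a => a⟩

@[simp] theorem add_val (a b : F64) : (a + b).val = Nat.xor a.val b.val := rfl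
@[simp] theorem mul_val (a b : F64) : (a * b).val = mulN a.val b.val := rfl
@[simp] theorem zero_val : (0 : F64).val = 0 := rfl
@[simp] theorem one_val : (1 : F64).val = 1 := rfl

/-- the generator of the multiplicative group -/
def al : F64 := ⟨2, by decide⟩

/-- powers of the generator -/
def pwF : Nat → F64
  | 0 => 1
  | k + 1 => al * pwF k

/-- raw powers of the generator -/
noncomputable def pwN (k : Nat) : Nat := Nat.rec 1 (fun _ ih => mulN 2 ih) k

theorem pwF_val (k : Nat) : (pwF k).val = pwN k := by
  induction k with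
  | zero => rfl
  | succ k ih =>
    change mulN 2 (pwF k).val = mulN 2 (pwN k)
    rw [ih]

/-- all field checks over the generator -/
noncomputable def chkBase : Bool :=
  and
    (allR (fun a =>
      and (Nat.beq (mulN 0 a) 0) (and (Nat.beq (mulN 1 a) a)
        (or (Nat.beq a 0) (and (Nat.beq (pwN (lg a)) a)
          (Nat.beq (mulN (Nat.land (Nat.shiftRight expTab (Nat.mul 6 (Nat.sub 63 (lg a)))) 63) a) 1))))) 6 0)
    (allR (fun b => allR (fun c =>
      and (Nat.beq (mulN (mulN 2 b) c) (mulN 2 (mulN b c)))
        (Nat.beq (mulN 2 (Nat.xor b c)) (Nat.xor (mulN 2 b) (mulN 2 c)))) 6 0) 6 0)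

theorem chkBase_ok : chkBase = true := by decide +kernel

theorem chkBase1 : ∀ a, a < 64 → ((Nat.beq (mulN 0 a) 0) && ((Nat.beq (mulN 1 a) a) &&
    ((Nat.beq a 0) || ((Nat.beq (pwN (lg a)) a) &&
      (Nat.beq (mulN (Nat.land (Nat.shiftRight expTab (Nat.mul 6 (Nat.sub 63 (lg a)))) 63) a) 1))))) = true := by
  have h := chkBase_ok
  have h' := Bool.and_eq_true_iff.1 h
  exact allR_below _ 6 h'.1

theorem chkBase2 : ∀ b, b < 64 → ∀ c, c < 64 →
    ((Nat.beq (mulN (mulN 2 b) c) (mulN 2 (mulN b c))) &&
        (Nat.beq (mulN 2 (Nat.xor b c)) (Nat.xor (mulN 2 b) (mulN 2 c)))) = true := by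
  have h := chkBase_ok
  have h' := Bool.and_eq_true_iff.1 h
  intro b hb
  exact allR_below _ 6 (allR_below _ 6 h'.2 b hb)

theorem zero_mul' (a : F64) : 0 * a = 0 := by
  have h := chkBase1 a.val a.lt
  simp only [Bool.and_eq_true, Nat.beq_eq] at h
  exact ext' h.1

theorem one_mul' (a : F64) : 1 * a = a := by
  have h := chkBase1 a.val a.lt
  simp only [Bool.and_eq_true, Nat.beq_eq] at h
  exact ext' h.2.1

theorem al_assoc (b c : F64) : al * b * c = al * (b * c) := by
  have h := chkBase2 b.val b.lt c.val c.lt
  simp only [Bool.and_eq_true, Nat.beq_eq] at h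
  exact ext' h.1

theorem al_distrib (b c : F64) : al * (b + c) = al * b + al * c := by
  have h := chkBase2 b.val b.lt c.val c.lt
  simp only [Bool.and_eq_true, Nat.beq_eq] at h
  exact ext' h.2

theorem eq_zero_or_pw (a : F64) : a = 0 ∨ ∃ k, a = pwF k := by
  have h := chkBase1 a.val a.lt
  simp only [Bool.and_eq_true, Bool.or_eq_true, Nat.beq_eq] at h
  rcases h.2.2 with h0 | h1
  · exact Or.inl (ext' h0)
  · refine Or.inr ⟨lg a.val, ext' ?_⟩
    rw [pwF_val]
    exact h1.1.symm

theorem exists_inv (a : F64) (ha : a ≠ 0) : ∃ b : F64, b * a = 1 := by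
  have h := chkBase1 a.val a.lt
  simp only [Bool.and_eq_true, Bool.or_eq_true, Nat.beq_eq] at h
  rcases h.2.2 with h0 | h1
  · exact absurd (ext' h0) ha
  · exact ⟨⟨_, Nat.and_lt_two_pow (n := 6) _ (by norm_num)⟩, ext' h1.2⟩

theorem mul_comm' (a b : F64) : a * b = b * a := by
  apply ext'
  change mulN a.val b.val = mulN b.val a.val
  unfold mulN
  rw [show Nat.add (lg a.val) (lg b.val) = Nat.add (lg b.val) (lg a.val) from Nat.add_comm _ _]

theorem mul_assoc' (a b c : F64) : a * b * c = a * (b * c) := by
  rcases eq_zero_or_pw a with rfl | ⟨k, rfl⟩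
  · rw [zero_mul', zero_mul', zero_mul']
  · induction k with
    | zero => change 1 * b * c = 1 * (b * c); rw [one_mul', one_mul']
    | succ k ih =>
      change al * pwF k * b * c = al * pwF k * (b * c)
      rw [al_assoc, al_assoc, al_assoc, ih]

theorem left_distrib' (a b c : F64) : a * (b + c) = a * b + a * c := by
  rcases eq_zero_or_pw a with rfl | ⟨k, rfl⟩
  · rw [zero_mul', zero_mul', zero_mul']
    exact ext' rfl
  · induction k with
    | zero => change 1 * (b + c) = 1 * b + 1 * c; rw [one_mul', one_mul', one_mul']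
    | succ k ih =>
      change al * pwF k * (b + c) = al * pwF k * b + al * pwF k * c
      rw [al_assoc, al_assoc, al_assoc, ih, al_distrib]

instance : CommRing F64 where
  add_assoc a b c := ext' (Nat.xor_assoc _ _ _)
  zero_add a := ext' (Nat.zero_xor _)
  add_zero a := ext' (Nat.xor_zero _)
  nsmul := nsmulRec
  neg_add_cancel a := ext' (Nat.xor_self _)
  zsmul := zsmulRec
  add_comm a b := ext' (Nat.xor_comm _ _)
  left_distrib := left_distrib'
  right_distrib a b c := by
    rw [mul_comm' (a + b) c, left_distrib', mul_comm' c a, mul_comm' c b]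
  zero_mul := zero_mul'
  mul_zero a := by rw [mul_comm', zero_mul']
  mul_assoc := mul_assoc'
  one_mul := one_mul'
  mul_one a := by rw [mul_comm', one_mul']
  mul_comm := mul_comm'

theorem add_self' (a : F64) : a + a = 0 := ext' (Nat.xor_self _)

theorem two_eq : (2 : F64) = 0 := by
  have : (2 : F64) = 1 + 1 := by norm_num
  rw [this]; exact add_self' 1

theorem mul_cancel (a x y : F64) (ha : a ≠ 0) (h : a * x = a * y) : x = y := by
  obtain ⟨b, hb⟩ := exists_inv a ha
  calc x = b * a * x := by rw [hb, one_mul]
    _ = b * a * y := by rw [mul_assoc, h, mul_assoc]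
    _ = y := by rw [hb, one_mul]

instance : Finite F64 :=
  Finite.of_injective (fun a : F64 => (⟨a.val, a.lt⟩ : Fin 64)) (by
    intro a b h
    exact ext' (Fin.mk.inj_iff.1 h))

end F64

end Vale.Agent.Lib.P183
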