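import Vale.Agent.Lib.P183.Tree
import Vale.Agent.Lib.P183.F64
import Vale.Agent.Lib.P183.Defs

/-!
A checker for congruence lattices of finite unary algebras, and its soundness.

A certificate describes a unary algebra on the points `0, …, k - 1` by tables of its operations,
a list of `n` partitions of the points given by class representatives, and a decomposition of all
pairs of points into orbits under the operations, with derivations that show that every
congruence is one of the `n` partitions.
-/
namespace Vale.Agent.Lib.P183

/-- entry `a` of a table stored in a tree, with 8 bits per entry, 16 entries per leaf -/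
noncomputable def getE (t : NTree) (a : Nat) : Nat :=
  Nat.land (Nat.shiftRight (NTree.get t (Nat.shiftRight a 4)) (Nat.mul 8 (Nat.land a 15))) 255

/-- a bit field -/
def bits (r s m : Nat) : Nat := Nat.land (Nat.shiftRight r s) m

theorem bits_one_iff (r s : Nat) : bits r s 1 = 1 ↔ Nat.testBit r s = true := by
  have h : bits r s 1 = (r >>> s) &&& 1 := rfl
  rw [h]
  simp only [Nat.testBit, Nat.and_comm 1, bne_iff_ne, ne_eq]
  have := Nat.and_lt_two_pow (n := 1) (r >>> s) (y := 1) (by norm_num)
  omega

/-- A certificate for a unary algebra. -/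
structure Cert where
  /-- number of points -/
  k : Nat
  /-- number of partitions -/
  n : Nat
  /-- number of operations -/
  m : Nat
  /-- number of orbits of pairs -/
  t : Nat
  /-- the order: bit `x * n + y` tells whether `x ≤ y` -/
  ord : Nat
  /-- the operations: entry `i * 256 + a` is the value of operation `i` at `a` -/
  ops : NTree
  /-- the partitions: entry `y * 256 + a` is the representative of the class of `a` in `y` -/
  cls : NTree
  /-- record of a pair: orbit (10 bits), op (5), rank (8), op (5), two points (8, 8), rank (8) -/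
  prs : NTree
  /-- for an orbit: representative pair (8 + 8 bits), then label (8 bits), 8 orbits per leaf -/
  reps : NTree
  /-- root orbit of each label (16 bits each) -/
  roots : Nat
  /-- bit mask of the labels (elements of the form orbit label) -/
  labs : Nat
  /-- for each orbit, rules that derive the root of its label from the orbit -/
  dn : List (List Nat)
  /-- for each label, rules that derive all orbits with that label from the root -/
  up : List (List Nat)
  /-- implications between labels (three bytes each), with rules -/
  imps : List (Nat × List Nat)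

namespace Cert

variable (c : Cert)

/-- value of an operation -/
noncomputable def f (i a : Nat) : Nat := getE c.ops (Nat.add (Nat.mul i 256) a)

/-- class representative -/
noncomputable def rp (y a : Nat) : Nat := getE c.cls (Nat.add (Nat.mul y 256) a)

/-- the order, as a boolean -/
def ordB (x y : Nat) : Bool := Nat.beq (bits c.ord (Nat.add (Nat.mul x c.n) y) 1) 1

/-- the record of the pair `a < b` -/
noncomputable def rec0 (a b : Nat) : Nat :=
  let i := Nat.add (Nat.div (Nat.mul b (Nat.sub b 1)) 2) a
  bits (NTree.get c.prs (Nat.shiftRight i 3)) (Nat.mul 52 (Nat.land i 7)) 4503599627370495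

/-- the record of an unordered pair -/
noncomputable def rec1 (a b : Nat) : Nat := cond (Nat.blt a b) (c.rec0 a b) (c.rec0 b a)

/-- orbit of a pair -/
noncomputable def orb (a b : Nat) : Nat := bits (c.rec1 a b) 0 1023

/-- descending rank of a pair -/
noncomputable def dr (a b : Nat) : Nat := bits (c.rec1 a b) 15 255

/-- ascending rank of a pair -/
noncomputable def ur (a b : Nat) : Nat := bits (c.rec1 a b) 44 255

/-- first point of the representative pair of an orbit -/
noncomputable def ra (o : Nat) : Nat := bits (NTree.get c.reps (Nat.shiftRight o 3))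
  (Nat.mul 24 (Nat.land o 7)) 255

/-- second point of the representative pair of an orbit -/
noncomputable def rb (o : Nat) : Nat := bits (NTree.get c.reps (Nat.shiftRight o 3))
  (Nat.add (Nat.mul 24 (Nat.land o 7)) 8) 255

/-- label of an orbit -/
noncomputable def lb (o : Nat) : Nat := bits (NTree.get c.reps (Nat.shiftRight o 3))
  (Nat.add (Nat.mul 24 (Nat.land o 7)) 16) 255

/-- root orbit of a label -/
def root (z : Nat) : Nat := bits c.roots (Nat.mul 16 z) 65535

/-- check for `a < b`: the pair goes down to the representative of its orbit -/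
noncomputable def chkDown (a b : Nat) : Bool :=
  let r := c.rec0 a b
  let o := bits r 0 1023
  and (Nat.blt o c.t)
  (cond (Nat.beq (bits r 15 255) 0) (and (Nat.beq a (c.ra o)) (Nat.beq b (c.rb o)))
    (let i := bits r 10 31
     let p := c.f i a
     let q := c.f i b
     and (Nat.blt i c.m) (and (not (Nat.beq p q))
       (and (Nat.beq (c.orb p q) o) (Nat.blt (c.dr p q) (bits r 15 255))))))

/-- check for `a < b`: the pair comes up from the representative of its orbit -/
noncomputable def chkUp (a b : Nat) : Bool :=
  let r := c.rec0 a b
  let o := bits r 0 1023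
  cond (Nat.beq (bits r 44 255) 0) (and (Nat.beq a (c.ra o)) (Nat.beq b (c.rb o)))
    (let i := bits r 23 31
     let p := bits r 28 255
     let q := bits r 36 255
     and (and (Nat.blt i c.m) (and (Nat.blt p c.k) (and (Nat.blt q c.k) (not (Nat.beq p q)))))
      (and (or (and (Nat.beq (c.f i p) a) (Nat.beq (c.f i q) b))
          (and (Nat.beq (c.f i p) b) (Nat.beq (c.f i q) a)))
        (and (Nat.beq (c.orb p q) o) (Nat.blt (c.ur p q) (bits r 44 255)))))

/-- check over all `a < b`, with `a` and `b` below `2 ^ 8` -/
noncomputable def allPairs (p : Nat → Nat → Bool) : Bool :=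
  allR (fun b => or (Nat.ble c.k b) (allR (fun a => or (Nat.ble b a) (p a b)) 8 0)) 8 0

/-- apply one rule to a set of orbits -/
noncomputable def stepRule (S r : Nat) : Nat :=
  let x := bits r 0 255
  let y := bits r 8 255
  let z := bits r 16 255
  cond (Nat.beq (bits r 24 1) 0)
    (cond (and (and (Nat.blt x c.k) (and (Nat.blt y c.k) (Nat.blt z c.k)))
        (and (and (not (Nat.beq x y)) (and (not (Nat.beq y z)) (not (Nat.beq x z))))
          (and (Nat.beq (bits S (c.orb x y) 1) 1) (Nat.beq (bits S (c.orb y z) 1) 1))))
      (Nat.lor S (Nat.shiftLeft 1 (c.orb x z))) S)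
    (let p := c.f z x
     let q := c.f z y
     cond (and (and (Nat.blt x c.k) (and (Nat.blt y c.k) (Nat.blt z c.m)))
        (and (and (not (Nat.beq x y)) (not (Nat.beq p q)))
          (Nat.beq (bits S (c.orb x y) 1) 1)))
      (Nat.lor S (Nat.shiftLeft 1 (c.orb p q))) S)

/-- apply a list of rules -/
noncomputable def runRules (S : Nat) (l : List Nat) : Nat :=
  List.rec (motive := fun _ => Nat → Nat) (fun S => S) (fun r _ ih S => ih (c.stepRule S r)) l S

/-- the checks on one orbit -/
noncomputable def chkOrbit (o : Nat) : Bool :=
  and (and (Nat.blt (c.ra o) (c.rb o)) (Nat.blt (c.rb o) c.k))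
  (and (and (Nat.blt (c.lb o) c.n) (Nat.beq (bits c.labs (c.lb o) 1) 1))
  (and (Nat.beq (bits (c.runRules (Nat.shiftLeft 1 o) (List.getD c.dn o [])) (c.root (c.lb o)) 1) 1)
    (allR (fun y => or (Nat.ble c.n y)
      (Nat.beq (cond (Nat.beq (c.rp y (c.ra o)) (c.rp y (c.rb o))) 1 0)
        (cond (c.ordB (c.lb o) y) 1 0))) 3 0)))

/-- the check that the rules of a label derive all orbits with that label -/
noncomputable def chkLabelUp (z : Nat) : Bool :=
  allR (fun o => or (Nat.ble c.t o) (or (not (Nat.beq (c.lb o) z))
    (Nat.beq (bits (c.runRules (Nat.shiftLeft 1 (c.root z)) (List.getD c.up z [])) o 1) 1))) 10 0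

/-- the root of a label is an orbit -/
def rootOk (z : Nat) : Bool := Nat.blt (c.root z) c.t

/-- a set of labels is violated by an implication -/
def violates (T : Nat) (e : Nat) : Bool :=
  and (Nat.beq (bits T (bits e 0 255) 1) 1) (and (Nat.beq (bits T (bits e 8 255) 1) 1)
    (not (Nat.beq (bits T (bits e 16 255) 1) 1)))

/-- a set of labels is the set of labels below `y` -/
noncomputable def isDown (T y : Nat) : Bool :=
  allR (fun z => or (Nat.ble c.n z) (or (not (Nat.beq (bits c.labs z 1) 1))
    (Nat.beq (bits T z 1) (cond (c.ordB z y) 1 0)))) 3 0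

/-- the check of all sets of labels -/
noncomputable def chkSets : Bool :=
  allR (fun T => or (not (Nat.beq (Nat.land T c.labs) T))
    (or (List.any c.imps (fun e => violates T e.1))
      (List.any (List.range c.n) (fun y => c.isDown T y)))) 7 0

/-- every implication follows from its rules -/
noncomputable def chkImps : Bool :=
  List.all c.imps (fun e =>
    and (and (Nat.blt (bits e.1 16 255) c.n) (Nat.beq (bits c.labs (bits e.1 16 255) 1) 1))
      (and (Nat.ble c.n 7)
      (Nat.beq (bits (c.runRules (Nat.lor (Nat.shiftLeft 1 (c.root (bits e.1 0 255)))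
        (Nat.shiftLeft 1 (c.root (bits e.1 8 255)))) e.2) (c.root (bits e.1 16 255)) 1) 1)))

/-- checks on the tables of the operations -/
noncomputable def chkOps : Bool :=
  allR (fun i => or (Nat.ble c.m i) (allR (fun a => or (Nat.ble c.k a)
      (and (Nat.blt (c.f i a) c.k)
        (allR (fun y => or (Nat.ble c.n y)
          (Nat.beq (c.rp y (c.f i a)) (c.rp y (c.f i (c.rp y a))))) 3 0))) 8 0)) 5 0

/-- checks on the tables of the partitions -/
noncomputable def chkCls : Bool :=
  allR (fun y => or (Nat.ble c.n y) (allR (fun a => or (Nat.ble c.k a)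
      (and (Nat.blt (c.rp y a) c.k) (Nat.beq (c.rp y (c.rp y a)) (c.rp y a)))) 8 0)) 3 0

/-- refinement of partitions -/
noncomputable def leB (x y : Nat) : Bool :=
  allR (fun a => or (Nat.ble c.k a) (Nat.beq (c.rp y (c.rp x a)) (c.rp y a))) 8 0

/-- the order is refinement of partitions -/
noncomputable def chkOrd : Bool :=
  allR (fun x => or (Nat.ble c.n x) (allR (fun y => or (Nat.ble c.n y)
    (Nat.beq (cond (c.ordB x y) 1 0) (cond (c.leB x y) 1 0))) 3 0)) 3 0

/-- all checks -/
noncomputable def chkAll : Bool :=
  and (and (Nat.blt 0 c.k) (and (Nat.ble c.k 256) (and (Nat.blt 0 c.n) (and (Nat.ble c.n 7)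
    (and (Nat.ble c.m 32) (Nat.ble c.t 1024))))))
  (and c.chkOps (and c.chkCls (and c.chkOrd
  (and (c.allPairs (fun a b => and (c.chkDown a b) (c.chkUp a b)))
  (and (allR (fun o => or (Nat.ble c.t o) (c.chkOrbit o)) 10 0)
  (and (allR (fun z => or (Nat.ble c.n z) (or (not (Nat.beq (bits c.labs z 1) 1))
      (and (c.rootOk z) (c.chkLabelUp z)))) 3 0)
  (and c.chkImps c.chkSets)))))))

end Cert

end Vale.Agent.Lib.P183
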