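import Vale.Agent.Lib.P183.Cert

/-!
Soundness of the certificate checker.
-/
namespace Vale.Agent.Lib.P183

namespace Cert

variable {c : Cert}

/-- all the conditions extracted from the check -/
structure Good (c : Cert) : Prop where
  k0 : 0 < c.k
  k1 : c.k ≤ 256
  n0 : 0 < c.n
  n1 : c.n ≤ 7
  m1 : c.m ≤ 32
  t1 : c.t ≤ 1024
  ops : c.chkOps = true
  cls : c.chkCls = true
  ord : c.chkOrd = true
  prs : c.allPairs (fun a b => and (c.chkDown a b) (c.chkUp a b)) = true
  orb : allR (fun o => or (Nat.ble c.t o) (c.chkOrbit o)) 10 0 = true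
  lab : allR (fun z => or (Nat.ble c.n z) (or (not (Nat.beq (bits c.labs z 1) 1))
      (and (c.rootOk z) (c.chkLabelUp z)))) 3 0 = true
  imps : c.chkImps = true
  sets : c.chkSets = true

theorem good_of_chk (h : c.chkAll = true) : Good c := by
  simp only [chkAll, Bool.and_eq_true] at h
  obtain ⟨⟨h1, h2, h3, h4, h5, h6⟩, h7, h8, h9, h10, h11, h12, h13, h14⟩ := h
  exact ⟨by simpa using h1, Nat.le_of_ble_eq_true h2, by simpa using h3, Nat.le_of_ble_eq_true h4,
    Nat.le_of_ble_eq_true h5, Nat.le_of_ble_eq_true h6, h7, h8, h9, h10, h11, h12, h13, h14⟩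

/-- from a guarded check over a range -/
theorem of_guard {p : Nat → Bool} {d N : Nat} (h : allR (fun i => or (Nat.ble N i) (p i)) d 0 = true)
    (hN : N ≤ 2 ^ d) {i : Nat} (hi : i < N) : p i = true := by
  have h1 := allR_below _ d h i (by omega)
  rcases Bool.or_eq_true_iff.1 h1 with h2 | h2
  · have := Nat.le_of_ble_eq_true h2
    omega
  · exact h2

theorem f_lt (g : Good c) {i a : Nat} (hi : i < c.m) (ha : a < c.k) : c.f i a < c.k := by
  have h1 := of_guard g.ops (by have := g.m1; norm_num; omega) hi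
  have h2 := of_guard h1 (by have := g.k1; norm_num; omega) ha
  exact (by simpa using (Bool.and_eq_true_iff.1 h2).1)

theorem rp_f (g : Good c) {i a y : Nat} (hi : i < c.m) (ha : a < c.k) (hy : y < c.n) :
    c.rp y (c.f i a) = c.rp y (c.f i (c.rp y a)) := by
  have h1 := of_guard g.ops (by have := g.m1; norm_num; omega) hi
  have h2 := of_guard h1 (by have := g.k1; norm_num; omega) ha
  have h3 := of_guard (Bool.and_eq_true_iff.1 h2).2 (by have := g.n1; norm_num; omega) hy
  exact Nat.eq_of_beq_eq_true h3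

theorem rp_lt (g : Good c) {y a : Nat} (hy : y < c.n) (ha : a < c.k) : c.rp y a < c.k := by
  have h1 := of_guard g.cls (by have := g.n1; norm_num; omega) hy
  have h2 := of_guard h1 (by have := g.k1; norm_num; omega) ha
  exact (by simpa using (Bool.and_eq_true_iff.1 h2).1)

theorem rp_rp (g : Good c) {y a : Nat} (hy : y < c.n) (ha : a < c.k) :
    c.rp y (c.rp y a) = c.rp y a := by
  have h1 := of_guard g.cls (by have := g.n1; norm_num; omega) hy
  have h2 := of_guard h1 (by have := g.k1; norm_num; omega) ha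
  exact Nat.eq_of_beq_eq_true (Bool.and_eq_true_iff.1 h2).2

theorem ord_iff (g : Good c) {x y : Nat} (hx : x < c.n) (hy : y < c.n) :
    c.ordB x y = true ↔ c.leB x y = true := by
  have h1 := of_guard g.ord (by have := g.n1; norm_num; omega) hx
  have h2 := of_guard h1 (by have := g.n1; norm_num; omega) hy
  have h3 := Nat.eq_of_beq_eq_true h2
  cases h4 : c.ordB x y <;> cases h5 : c.leB x y <;> simp_all

theorem allR_of {p : Nat → Bool} {d lo : Nat} (h : ∀ i, lo ≤ i → i < lo + 2 ^ d → p i = true) :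
    allR p d lo = true := by
  induction d generalizing lo with
  | zero => exact h lo (le_refl _) (by simp)
  | succ d ih =>
    have : (allR p d lo && allR p d (lo + 2 ^ d)) = true := by
      rw [Bool.and_eq_true_iff]
      constructor
      · exact ih (fun i h1 h2 => h i h1 (by rw [pow_succ]; omega))
      · exact ih (fun i h1 h2 => h i (by omega) (by rw [pow_succ]; omega))
    exact this

theorem leB_iff (g : Good c) {x y : Nat} :
    c.leB x y = true ↔ ∀ a, a < c.k → c.rp y (c.rp x a) = c.rp y a := by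
  constructor
  · intro h a ha
    exact Nat.eq_of_beq_eq_true (of_guard h (by have := g.k1; norm_num; omega) ha)
  · intro h
    apply allR_of
    intro a _ _
    rw [Bool.or_eq_true_iff]
    by_cases ha : a < c.k
    · right
      rw [h a ha]
      exact Nat.beq_refl _
    · left
      exact Nat.ble_eq_true_of_le (by omega)

theorem rec1_lt {a b : Nat} (h : a < b) : c.rec1 a b = c.rec0 a b := by
  have : Nat.blt a b = true := by simpa using h
  simp [rec1, this]

theorem blt_false {a b : Nat} (h : ¬ a < b) : Nat.blt a b = false := by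
  rw [Bool.eq_false_iff]
  intro h'
  exact h (by simpa using h')

theorem cond_iff {a b : Nat} {q : Bool}
    (h : Nat.beq (cond (Nat.beq a b) 1 0) (cond q 1 0) = true) : a = b ↔ q = true := by
  have h8 := Nat.eq_of_beq_eq_true h
  by_cases hab : a = b
  · subst hab
    rw [Nat.beq_refl] at h8
    cases q <;> simp_all
  · have : Nat.beq a b = false := Bool.eq_false_iff.2 (fun e => hab (Nat.eq_of_beq_eq_true e))
    rw [this] at h8
    cases q <;> simp_all

theorem rec1_comm {a b : Nat} (h : a ≠ b) : c.rec1 a b = c.rec1 b a := by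
  rcases lt_or_gt_of_ne h with h1 | h1
  · rw [rec1_lt h1]
    have : Nat.blt b a = false := blt_false (by omega)
    simp [rec1, this]
  · rw [rec1_lt h1]
    have : Nat.blt a b = false := blt_false (by omega)
    simp [rec1, this]

theorem orb_comm {a b : Nat} (h : a ≠ b) : c.orb a b = c.orb b a := by
  simp only [orb, rec1_comm h]

theorem dr_comm {a b : Nat} (h : a ≠ b) : c.dr a b = c.dr b a := by
  simp only [dr, rec1_comm h]

theorem ur_comm {a b : Nat} (h : a ≠ b) : c.ur a b = c.ur b a := by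
  simp only [ur, rec1_comm h]

theorem pair_chk (g : Good c) {a b : Nat} (hb : b < c.k) (hab : a < b) :
    c.chkDown a b = true ∧ c.chkUp a b = true := by
  have hk := g.k1
  have h1 := allR_below _ 8 g.prs b (by norm_num; omega)
  rcases Bool.or_eq_true_iff.1 h1 with h2 | h2
  · have := Nat.le_of_ble_eq_true h2
    omega
  · have h3 := allR_below _ 8 h2 a (by norm_num; omega)
    rcases Bool.or_eq_true_iff.1 h3 with h4 | h4
    · have := Nat.le_of_ble_eq_true h4
      omega
    · exact Bool.and_eq_true_iff.1 h4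

theorem chkDown_spec {a b : Nat} (h : c.chkDown a b = true) :
    c.orb a b = c.orb a b ∧ bits (c.rec0 a b) 0 1023 < c.t ∧
    ((bits (c.rec0 a b) 15 255 = 0 ∧ a = c.ra (bits (c.rec0 a b) 0 1023) ∧
        b = c.rb (bits (c.rec0 a b) 0 1023)) ∨
      (bits (c.rec0 a b) 10 31 < c.m ∧
        c.f (bits (c.rec0 a b) 10 31) a ≠ c.f (bits (c.rec0 a b) 10 31) b ∧
        c.orb (c.f (bits (c.rec0 a b) 10 31) a) (c.f (bits (c.rec0 a b) 10 31) b) =
          bits (c.rec0 a b) 0 1023 ∧
        c.dr (c.f (bits (c.rec0 a b) 10 31) a) (c.f (bits (c.rec0 a b) 10 31) b) <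
          bits (c.rec0 a b) 15 255)) := by
  simp only [chkDown, Bool.and_eq_true, Nat.blt_eq] at h
  obtain ⟨h1, h2⟩ := h
  refine ⟨rfl, h1, ?_⟩
  cases h3 : Nat.beq (bits (c.rec0 a b) 15 255) 0
  · right
    rw [h3] at h2
    simp only [cond_false, Bool.and_eq_true, Nat.blt_eq, Nat.beq_eq, Bool.not_eq_true'] at h2
    refine ⟨h2.1, ?_, h2.2.2.1, h2.2.2.2⟩
    intro h4
    have := h2.2.1
    rw [h4] at this
    simp at this
  · left
    rw [h3] at h2
    simp only [cond_true, Bool.and_eq_true, Nat.beq_eq] at h2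
    exact ⟨Nat.eq_of_beq_eq_true h3, h2.1, h2.2⟩

theorem chkUp_spec {a b : Nat} (h : c.chkUp a b = true) :
    ((bits (c.rec0 a b) 44 255 = 0 ∧ a = c.ra (bits (c.rec0 a b) 0 1023) ∧
        b = c.rb (bits (c.rec0 a b) 0 1023)) ∨
      (bits (c.rec0 a b) 23 31 < c.m ∧ bits (c.rec0 a b) 28 255 < c.k ∧
        bits (c.rec0 a b) 36 255 < c.k ∧ bits (c.rec0 a b) 28 255 ≠ bits (c.rec0 a b) 36 255 ∧
        ((c.f (bits (c.rec0 a b) 23 31) (bits (c.rec0 a b) 28 255) = a ∧
            c.f (bits (c.rec0 a b) 23 31) (bits (c.rec0 a b) 36 255) = b) ∨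
          (c.f (bits (c.rec0 a b) 23 31) (bits (c.rec0 a b) 28 255) = b ∧
            c.f (bits (c.rec0 a b) 23 31) (bits (c.rec0 a b) 36 255) = a)) ∧
        c.orb (bits (c.rec0 a b) 28 255) (bits (c.rec0 a b) 36 255) =
          bits (c.rec0 a b) 0 1023 ∧
        c.ur (bits (c.rec0 a b) 28 255) (bits (c.rec0 a b) 36 255) <
          bits (c.rec0 a b) 44 255)) := by
  simp only [chkUp] at h
  cases h3 : Nat.beq (bits (c.rec0 a b) 44 255) 0
  · right
    rw [h3] at h
    simp only [cond_false, Bool.and_eq_true, Bool.or_eq_true, Nat.blt_eq, Nat.beq_eq,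
      Bool.not_eq_true'] at h
    obtain ⟨⟨h1, h2, h4, h5⟩, h6, h7, h8⟩ := h
    refine ⟨h1, h2, h4, ?_, h6, h7, h8⟩
    intro h9
    rw [h9] at h5
    simp at h5
  · left
    rw [h3] at h
    simp only [cond_true, Bool.and_eq_true, Nat.beq_eq] at h
    exact ⟨Nat.eq_of_beq_eq_true h3, h.1, h.2⟩

/-- The point attached to a natural number. -/
def toF (hk : 0 < c.k) (a : Nat) : Fin c.k := ⟨a % c.k, Nat.mod_lt _ hk⟩

theorem toF_val (hk : 0 < c.k) {a : Nat} (ha : a < c.k) : (toF hk a).val = a :=
  Nat.mod_eq_of_lt ha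

/-- The unary operation `i`. -/
noncomputable def opF (hk : 0 < c.k) (i : Nat) (x : Fin c.k) : Fin c.k := toF hk (c.f i x.val)

/-- The operations of the algebra. -/
noncomputable def opsL (c : Cert) (hk : 0 < c.k) : List (FinOp (Fin c.k)) :=
  (List.range c.m).map (fun i => ⟨1, fun x => opF hk i (x 0)⟩)

theorem isCong_iff (hk : 0 < c.k) (s : Setoid (Fin c.k)) :
    IsCong (opsL c hk) s ↔
      ∀ i, i < c.m → ∀ x y, s.r x y → s.r (opF hk i x) (opF hk i y) := by
  constructor
  · intro h i hi x y hxy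
    have := h ⟨1, fun x => opF hk i (x 0)⟩ (List.mem_map.2 ⟨i, List.mem_range.2 hi, rfl⟩)
      (fun _ => x) (fun _ => y) (fun _ => hxy)
    exact this
  · intro h f hf x y hxy
    obtain ⟨i, hi, rfl⟩ := List.mem_map.1 hf
    exact h i (List.mem_range.1 hi) _ _ (hxy (0 : Fin 1))

/-- The partition `y`. -/
noncomputable def phi (c : Cert) (y : Nat) : Setoid (Fin c.k) where
  r x x' := c.rp y x.val = c.rp y x'.val
  iseqv := ⟨fun _ => rfl, Eq.symm, Eq.trans⟩

section
variable (g : Good c) (s : Setoid (Fin c.k))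

/-- the relation on natural numbers -/
def R (a b : Nat) : Prop := s.r (toF g.k0 a) (toF g.k0 b)

variable {g s}

theorem R_symm {a b : Nat} (h : R g s a b) : R g s b a := s.iseqv.symm h

theorem R_trans {a b d : Nat} (h : R g s a b) (h' : R g s b d) : R g s a d := s.iseqv.trans h h'

theorem R_op (hs : IsCong (opsL c g.k0) s) {i a b : Nat} (hi : i < c.m) (ha : a < c.k)
    (hb : b < c.k) (h : R g s a b) : R g s (c.f i a) (c.f i b) := by
  have h1 := (isCong_iff g.k0 s).1 hs i hi _ _ h
  unfold opF at h1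
  rw [toF_val g.k0 ha, toF_val g.k0 hb] at h1
  exact h1

theorem down_mem (hs : IsCong (opsL c g.k0) s) :
    ∀ r a b, c.dr a b = r → a < c.k → b < c.k → a ≠ b → R g s a b →
      R g s (c.ra (c.orb a b)) (c.rb (c.orb a b)) := by
  intro r
  induction r using Nat.strong_induction_on with
  | _ r ih =>
    have main : ∀ a b, c.dr a b = r → a < c.k → b < c.k → a < b → R g s a b →
        R g s (c.ra (c.orb a b)) (c.rb (c.orb a b)) := by
      intro a b hr ha hb hab hR
      have e1 : c.orb a b = bits (c.rec0 a b) 0 1023 := by simp only [orb, rec1_lt hab]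
      have e2 : c.dr a b = bits (c.rec0 a b) 15 255 := by simp only [dr, rec1_lt hab]
      obtain ⟨-, -, h3⟩ := chkDown_spec (pair_chk g hb hab).1
      rw [e1]
      rcases h3 with ⟨-, h4, h5⟩ | ⟨h4, h5, h6, h7⟩
      · rwa [← h4, ← h5]
      · have h8 := R_op hs h4 ha hb hR
        have h9 := ih _ (by rw [← hr, e2]; exact h7) _ _ rfl (f_lt g h4 ha) (f_lt g h4 hb) h5 h8
        rwa [h6] at h9
    intro a b hr ha hb hne hR
    rcases lt_or_gt_of_ne hne with h1 | h1
    · exact main a b hr ha hb h1 hR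
    · rw [orb_comm hne]
      exact main b a (by rw [← dr_comm hne]; exact hr) hb ha h1 (R_symm hR)

theorem up_mem (hs : IsCong (opsL c g.k0) s) :
    ∀ r a b, c.ur a b = r → a < c.k → b < c.k → a ≠ b →
      R g s (c.ra (c.orb a b)) (c.rb (c.orb a b)) → R g s a b := by
  intro r
  induction r using Nat.strong_induction_on with
  | _ r ih =>
    have main : ∀ a b, c.ur a b = r → a < c.k → b < c.k → a < b →
        R g s (c.ra (c.orb a b)) (c.rb (c.orb a b)) → R g s a b := by
      intro a b hr ha hb hab hR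
      have e1 : c.orb a b = bits (c.rec0 a b) 0 1023 := by simp only [orb, rec1_lt hab]
      have e2 : c.ur a b = bits (c.rec0 a b) 44 255 := by simp only [ur, rec1_lt hab]
      have h3 := chkUp_spec (pair_chk g hb hab).2
      rw [e1] at hR
      rcases h3 with ⟨-, h4, h5⟩ | ⟨h4, h5, h6, h7, h8, h9, h10⟩
      · rwa [← h4, ← h5] at hR
      · have h11 := ih _ (by rw [← hr, e2]; exact h10) _ _ rfl h5 h6 h7 (by rw [h9]; exact hR)
        have h12 := R_op hs h4 h5 h6 h11
        rcases h8 with ⟨h13, h14⟩ | ⟨h13, h14⟩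
        · rwa [h13, h14] at h12
        · rw [h13, h14] at h12
          exact R_symm h12
    intro a b hr ha hb hne hR
    rcases lt_or_gt_of_ne hne with h1 | h1
    · exact main a b hr ha hb h1 hR
    · rw [orb_comm hne] at hR
      exact R_symm (main b a (by rw [← ur_comm hne]; exact hr) hb ha h1 hR)

/-- The representative pair of an orbit lies in `s`. -/
def Holds (g : Good c) (s : Setoid (Fin c.k)) (o : Nat) : Prop := R g s (c.ra o) (c.rb o)

theorem R_iff_holds (hs : IsCong (opsL c g.k0) s) {a b : Nat} (ha : a < c.k) (hb : b < c.k)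
    (hne : a ≠ b) : R g s a b ↔ Holds g s (c.orb a b) :=
  ⟨down_mem hs _ a b rfl ha hb hne, up_mem hs _ a b rfl ha hb hne⟩

/-- All orbits in a set of orbits hold. -/
def AllH (g : Good c) (s : Setoid (Fin c.k)) (S : Nat) : Prop :=
  ∀ o, bits S o 1 = 1 → Holds g s o

theorem allH_add {S o : Nat} (h : AllH g s S) (ho : Holds g s o) :
    AllH g s (Nat.lor S (Nat.shiftLeft 1 o)) := by
  intro o' h1
  rw [bits_one_iff] at h1
  have h2 : (S ||| (1 <<< o)).testBit o' = true := h1
  rw [Nat.testBit_or, Nat.one_shiftLeft, Nat.testBit_two_pow, Bool.or_eq_true] at h2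
  rcases h2 with h2 | h2
  · exact h o' ((bits_one_iff _ _).2 h2)
  · have : o = o' := by simpa using h2
    rwa [← this]

theorem allH_single {o : Nat} (h : Holds g s o) : AllH g s (Nat.shiftLeft 1 o) := by
  intro o' h1
  rw [bits_one_iff] at h1
  have h2 : (1 <<< o).testBit o' = true := h1
  rw [Nat.one_shiftLeft, Nat.testBit_two_pow] at h2
  have : o = o' := by simpa using h2
  rwa [← this]

theorem allH_pair {o o' : Nat} (h : Holds g s o) (h' : Holds g s o') :
    AllH g s (Nat.lor (Nat.shiftLeft 1 o) (Nat.shiftLeft 1 o')) :=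
  allH_add (allH_single h) h'

theorem stepRule_ok (hs : IsCong (opsL c g.k0) s) {S : Nat} (h : AllH g s S) (r : Nat) :
    AllH g s (c.stepRule S r) := by
  unfold stepRule
  simp only
  cases h0 : Nat.beq (bits r 24 1) 0
  · simp only [cond_false]
    cases h1 : (and (and (Nat.blt (bits r 0 255) c.k) (and (Nat.blt (bits r 8 255) c.k)
        (Nat.blt (bits r 16 255) c.m))) (and (and (not (Nat.beq (bits r 0 255) (bits r 8 255)))
          (not (Nat.beq (c.f (bits r 16 255) (bits r 0 255)) (c.f (bits r 16 255) (bits r 8 255)))))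
          (Nat.beq (bits S (c.orb (bits r 0 255) (bits r 8 255)) 1) 1)))
    · simpa only [cond_false] using h
    · simp only [cond_true]
      simp only [Bool.and_eq_true, Nat.blt_eq, Bool.not_eq_true', Nat.beq_eq] at h1
      obtain ⟨⟨a1, a2, a3⟩, ⟨a4, a5⟩, a6⟩ := h1
      have ne1 : bits r 0 255 ≠ bits r 8 255 := by
        intro e; rw [e] at a4; simp at a4
      have ne2 : c.f (bits r 16 255) (bits r 0 255) ≠ c.f (bits r 16 255) (bits r 8 255) := by
        intro e; rw [e] at a5; simp at a5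
      have b1 := (R_iff_holds hs a1 a2 ne1).2 (h _ a6)
      have b2 := R_op hs a3 a1 a2 b1
      exact allH_add h ((R_iff_holds hs (f_lt g a3 a1) (f_lt g a3 a2) ne2).1 b2)
  · simp only [cond_true]
    cases h1 : (and (and (Nat.blt (bits r 0 255) c.k) (and (Nat.blt (bits r 8 255) c.k)
        (Nat.blt (bits r 16 255) c.k))) (and (and (not (Nat.beq (bits r 0 255) (bits r 8 255)))
          (and (not (Nat.beq (bits r 8 255) (bits r 16 255)))
            (not (Nat.beq (bits r 0 255) (bits r 16 255)))))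
          (and (Nat.beq (bits S (c.orb (bits r 0 255) (bits r 8 255)) 1) 1)
            (Nat.beq (bits S (c.orb (bits r 8 255) (bits r 16 255)) 1) 1))))
    · simpa only [cond_false] using h
    · simp only [cond_true]
      simp only [Bool.and_eq_true, Nat.blt_eq, Bool.not_eq_true', Nat.beq_eq] at h1
      obtain ⟨⟨a1, a2, a3⟩, ⟨a4, a5, a6⟩, a7, a8⟩ := h1
      have ne1 : bits r 0 255 ≠ bits r 8 255 := by
        intro e; rw [e] at a4; simp at a4
      have ne2 : bits r 8 255 ≠ bits r 16 255 := by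
        intro e; rw [e] at a5; simp at a5
      have ne3 : bits r 0 255 ≠ bits r 16 255 := by
        intro e; rw [e] at a6; simp at a6
      have b1 := (R_iff_holds hs a1 a2 ne1).2 (h _ a7)
      have b2 := (R_iff_holds hs a2 a3 ne2).2 (h _ a8)
      exact allH_add h ((R_iff_holds hs a1 a3 ne3).1 (R_trans b1 b2))

theorem runRules_ok (hs : IsCong (opsL c g.k0) s) (l : List Nat) :
    ∀ {S : Nat}, AllH g s S → AllH g s (c.runRules S l) := by
  induction l with
  | nil => intro S h; exact h
  | cons r l ih =>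
    intro S h
    exact ih (stepRule_ok hs h r)

end

theorem orbit_spec (g : Good c) {o : Nat} (ho : o < c.t) :
    c.ra o < c.rb o ∧ c.rb o < c.k ∧ c.lb o < c.n ∧ bits c.labs (c.lb o) 1 = 1 ∧
    bits (c.runRules (Nat.shiftLeft 1 o) (List.getD c.dn o [])) (c.root (c.lb o)) 1 = 1 ∧
    ∀ y, y < c.n → ((c.rp y (c.ra o) = c.rp y (c.rb o)) ↔ c.ordB (c.lb o) y = true) := by
  have h := of_guard g.orb (by have := g.t1; norm_num; omega) ho
  simp only [chkOrbit, Bool.and_eq_true, Nat.blt_eq, Nat.beq_eq] at h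
  obtain ⟨⟨h1, h2⟩, ⟨h3, h4⟩, h5, h6⟩ := h
  refine ⟨h1, h2, h3, h4, h5, ?_⟩
  intro y hy
  exact cond_iff (of_guard h6 (by have := g.n1; norm_num; omega) hy)

theorem label_spec (g : Good c) {z : Nat} (hz : z < c.n) (hl : bits c.labs z 1 = 1) :
    c.root z < c.t ∧ ∀ o, o < c.t → c.lb o = z →
      bits (c.runRules (Nat.shiftLeft 1 (c.root z)) (List.getD c.up z [])) o 1 = 1 := by
  have h := of_guard g.lab (by have := g.n1; norm_num; omega) hz
  rcases Bool.or_eq_true_iff.1 h with h1 | h1
  · simp [hl] at h1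
  · rw [Bool.and_eq_true_iff] at h1
    refine ⟨by simpa [rootOk] using h1.1, fun o ho hlb => ?_⟩
    have h2 := of_guard h1.2 (by have := g.t1; norm_num; omega) ho
    rcases Bool.or_eq_true_iff.1 h2 with h3 | h3
    · simp [hlb] at h3
    · exact Nat.eq_of_beq_eq_true h3

theorem holds_iff_root (g : Good c) {s : Setoid (Fin c.k)} (hs : IsCong (opsL c g.k0) s) {o : Nat}
    (ho : o < c.t) : Holds g s o ↔ Holds g s (c.root (c.lb o)) := by
  obtain ⟨-, -, h3, h4, h5, -⟩ := orbit_spec g ho
  obtain ⟨-, h7⟩ := label_spec g h3 h4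
  constructor
  · intro h
    exact runRules_ok hs _ (allH_single h) _ h5
  · intro h
    exact runRules_ok hs _ (allH_single h) _ (h7 o ho rfl)

theorem phi_cong (g : Good c) {y : Nat} (hy : y < c.n) : IsCong (opsL c g.k0) (phi c y) := by
  rw [isCong_iff]
  intro i hi x x' h
  have h0 : c.rp y x.val = c.rp y x'.val := h
  change c.rp y (toF g.k0 (c.f i x.val)).val = c.rp y (toF g.k0 (c.f i x'.val)).val
  rw [toF_val g.k0 (f_lt g hi x.2), toF_val g.k0 (f_lt g hi x'.2), rp_f g hi x.2 hy,
    rp_f g hi x'.2 hy, h0]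

theorem R_phi (g : Good c) {y a b : Nat} (ha : a < c.k) (hb : b < c.k) :
    R g (phi c y) a b ↔ c.rp y a = c.rp y b := by
  change c.rp y (toF g.k0 a).val = c.rp y (toF g.k0 b).val ↔ _
  rw [toF_val g.k0 ha, toF_val g.k0 hb]

theorem exists_y (g : Good c) {s : Setoid (Fin c.k)} (hs : IsCong (opsL c g.k0) s) :
    ∃ y, y < c.n ∧ ∀ z, z < c.n → bits c.labs z 1 = 1 →
      (Holds g s (c.root z) ↔ c.ordB z y = true) := by
  classical
  let P : Fin 7 → Bool := fun z =>
    decide (z.val < c.n ∧ bits c.labs z.val 1 = 1 ∧ Holds g s (c.root z.val))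
  let T : Nat := Nat.ofBits P
  have hT : T < 2 ^ 7 := Nat.ofBits_lt_two_pow P
  have hn7 := g.n1
  have bitT : ∀ z, bits T z 1 = 1 ↔ (z < c.n ∧ bits c.labs z 1 = 1 ∧ Holds g s (c.root z)) := by
    intro z
    rw [bits_one_iff]
    by_cases hz : z < 7
    · rw [Nat.testBit_ofBits_lt P z hz]
      simp [P]
    · rw [Nat.testBit_ofBits_ge P z (by omega)]
      constructor
      · intro h; simp at h
      · rintro ⟨h1, -⟩; omega
  have h := allR_below _ 7 g.sets T hT
  rcases Bool.or_eq_true_iff.1 h with h1 | h1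
  · exfalso
    have h2 : Nat.land T c.labs = T := by
      apply Nat.eq_of_testBit_eq
      intro i
      change (T &&& c.labs).testBit i = _
      rw [Nat.testBit_and]
      cases h3 : T.testBit i
      · simp
      · have := (bitT i).1 ((bits_one_iff _ _).2 h3)
        have h4 := (bits_one_iff _ _).1 this.2.1
        simp [h4]
    rw [h2, Nat.beq_refl] at h1
    exact absurd h1 (by decide)
  rcases Bool.or_eq_true_iff.1 h1 with h1 | h1
  · exfalso
    obtain ⟨e, he, hv⟩ := List.any_eq_true.1 h1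
    simp only [violates, Bool.and_eq_true, Nat.beq_eq, Bool.not_eq_true'] at hv
    obtain ⟨v1, v2, v3⟩ := hv
    obtain ⟨z1, l1, c1⟩ := (bitT _).1 v1
    obtain ⟨z2, l2, c2⟩ := (bitT _).1 v2
    have hi := List.all_eq_true.1 g.imps e he
    simp only [Bool.and_eq_true, Nat.blt_eq, Nat.beq_eq] at hi
    obtain ⟨⟨i1, i2⟩, -, i3⟩ := hi
    have hcon : Holds g s (c.root (bits e.1 16 255)) :=
      runRules_ok hs _ (allH_pair c1 c2) _ i3
    have h3 := (bitT _).2 ⟨i1, i2, hcon⟩
    rw [h3] at v3
    simp at v3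
  · obtain ⟨y, hy, hd⟩ := List.any_eq_true.1 h1
    refine ⟨y, List.mem_range.1 hy, fun z hz hl => ?_⟩
    have h3 := of_guard (allR_of (p := fun i => or (Nat.ble c.n i) (or (not (Nat.beq (bits c.labs i 1) 1))
      (Nat.beq (bits T i 1) (cond (c.ordB i y) 1 0))))
      (fun i _ _ => allR_spec _ 3 0 hd i (Nat.zero_le _) (by omega))) (by norm_num; omega) hz
    rcases Bool.or_eq_true_iff.1 h3 with h4 | h4
    · simp [hl] at h4
    · have h5 := Nat.eq_of_beq_eq_true h4
      cases h6 : c.ordB z y
      · rw [h6] at h5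
        constructor
        · intro h7
          have := (bitT z).2 ⟨hz, hl, h7⟩
          rw [h5] at this
          simp at this
        · intro h7; simp at h7
      · rw [h6] at h5
        constructor
        · intro _; rfl
        · intro _
          exact ((bitT z).1 h5).2.2

theorem exists_phi (g : Good c) {s : Setoid (Fin c.k)} (hs : IsCong (opsL c g.k0) s) :
    ∃ y, y < c.n ∧ s = phi c y := by
  obtain ⟨y, hy, h⟩ := exists_y g hs
  refine ⟨y, hy, Setoid.ext ?_⟩
  intro x x'
  by_cases hxx : x = x'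
  · subst hxx
    exact ⟨fun _ => rfl, fun _ => s.iseqv.refl _⟩
  have hne : x.val ≠ x'.val := fun e => hxx (Fin.ext e)
  have e1 : toF g.k0 x.val = x := Fin.ext (toF_val g.k0 x.2)
  have e2 : toF g.k0 x'.val = x' := Fin.ext (toF_val g.k0 x'.2)
  have ho : c.orb x.val x'.val < c.t := by
    rcases lt_or_gt_of_ne hne with h1 | h1
    · have := (chkDown_spec (pair_chk g x'.2 h1).1).2.1
      simpa only [orb, rec1_lt h1] using this
    · have := (chkDown_spec (pair_chk g x.2 h1).1).2.1
      rw [orb_comm hne]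
      simpa only [orb, rec1_lt h1] using this
  obtain ⟨-, -, h3, h4, -, h6⟩ := orbit_spec g ho
  have s1 : s.r x x' ↔ Holds g s (c.orb x.val x'.val) := by
    have := R_iff_holds (g := g) (s := s) hs x.2 x'.2 hne
    unfold R at this
    rwa [e1, e2] at this
  have s2 : (phi c y).r x x' ↔ Holds g (phi c y) (c.orb x.val x'.val) := by
    have := R_iff_holds (g := g) (s := phi c y) (phi_cong g hy) x.2 x'.2 hne
    unfold R at this
    rwa [e1, e2] at this
  have s3 : Holds g (phi c y) (c.orb x.val x'.val) ↔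
      c.ordB (c.lb (c.orb x.val x'.val)) y = true := by
    obtain ⟨h7, h8, -⟩ := orbit_spec g ho
    unfold Holds
    rw [R_phi g (by omega) h8]
    exact h6 y hy
  rw [s1, holds_iff_root g hs ho, h _ h3 h4, ← s3, ← s2]

end Cert

/-- Soundness of the certificate check: the order given by the certificate is representable. -/
theorem Cert.sound {c : Cert} (h : c.chkAll = true) {L : Type} [PartialOrder L] (e : L ≃ Fin c.n)
    (he : ∀ x y, x ≤ y ↔ c.ordB (e x) (e y) = true) : Representable L := by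
  have g := Cert.good_of_chk h
  let φ : L → {s : Setoid (Fin c.k) // IsCong (Cert.opsL c g.k0) s} :=
    fun x => ⟨Cert.phi c (e x), Cert.phi_cong g (e x).2⟩
  have hle : ∀ x y, φ x ≤ φ y ↔ x ≤ y := by
    intro x y
    rw [he, Cert.ord_iff g (e x).2 (e y).2, Cert.leB_iff g]
    constructor
    · intro h a ha
      have h1 : c.rp (e x) (c.rp (e x) a) = c.rp (e x) a := Cert.rp_rp g (e x).2 ha
      have h2 := @h ⟨c.rp (e x) a, Cert.rp_lt g (e x).2 ha⟩ ⟨a, ha⟩ h1
      exact h2
    · intro h a b hab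
      have hab' : c.rp (e x) a.val = c.rp (e x) b.val := hab
      change c.rp (e y) a.val = c.rp (e y) b.val
      rw [← h a.val a.2, ← h b.val b.2, hab']
  have hsurj : Function.Surjective φ := by
    rintro ⟨s, hs⟩
    obtain ⟨y, hy, rfl⟩ := Cert.exists_phi g hs
    refine ⟨e.symm ⟨y, hy⟩, Subtype.ext ?_⟩
    simp [φ]
  exact ⟨Fin c.k, inferInstance, ⟨⟨0, g.k0⟩⟩, Cert.opsL c g.k0,
    ⟨(RelIso.ofSurjective (OrderEmbedding.ofMapLEIff φ hle) hsurj)⟩⟩

end Vale.Agent.Lib.P183
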