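import Mathlib

/-!
Binary trees of natural numbers, used to store certificate data with fast random access
in kernel computations.
-/
namespace Vale.Agent.Lib.P183

/-- Binary trees with natural numbers at the leaves. -/
inductive NTree : Type
  | l (v : Nat) : NTree
  | n (a b : NTree) : NTree

/-- Random access in a binary tree, reading the path from its low bit. -/
noncomputable def NTree.get (t : NTree) : Nat → Nat :=
  NTree.rec (motive := fun _ => Nat → Nat) (fun v _ => v)
    (fun _ _ iha ihb p =>
      cond (Nat.beq (Nat.land p 1) 0) (iha (Nat.shiftRight p 1)) (ihb (Nat.shiftRight p 1))) t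

end Vale.Agent.Lib.P183
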