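import Vale.Agent.Lib.P183.SL2
import Vale.Agent.Lib.P183.Tree
import Vale.Agent.Lib.P183.NodeData
import Vale.Agent.Lib.P183.CovData

/-!
The kernel checks on the certificate data.
-/
namespace Vale.Agent.Lib.P183

/-- number of double cosets -/
def numN : Nat := 7303

/-- a bit field -/
def fld (r s m : Nat) : Nat := Nat.land (Nat.shiftRight r s) m

/-- record of a double coset -/
noncomputable def nodeRec (i : Nat) : Nat :=
  fld (NTree.get nodeTree (Nat.shiftRight i 3)) (Nat.mul 74 (Nat.land i 7)) 18889465931478580854783

/-- the quadruple in a record -/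
def recT (r : Nat) : T4 := ⟨fld r 18 63, fld r 12 63, fld r 6 63, fld r 0 63⟩

/-- the quadruple of a double coset representative -/
noncomputable def nT (i : Nat) : T4 := recT (nodeRec i)

/-- the first node of the block of a node -/
def rootOf (i : Nat) : Nat :=
  cond (Nat.blt i 7275) 0 (cond (Nat.blt i 7290) 7275 (cond (Nat.blt i 7296) 7290
    (cond (Nat.blt i 7299) 7296 (cond (Nat.blt i 7301) 7299 (cond (Nat.blt i 7302) 7301 7302)))))

/-- the target of the descending move -/
noncomputable def dnNext (i : Nat) : Nat := fld (nodeRec i) 24 8191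

/-- the result of the descending move -/
noncomputable def dnT (i : Nat) : T4 :=
  lAct (fld (nodeRec i) 37 7) (rAct (fld (nodeRec i) 43 7)
    (mulT (rAct (fld (nodeRec i) 40 7) (nT i)) (nT i)))

/-- check of the descending move -/
noncomputable def dnOk (i : Nat) : Bool :=
  and (Nat.blt (dnNext i) i) (and (Nat.beq (rootOf (dnNext i)) (rootOf i))
    (eqT (dnT i) (nT (dnNext i))))

/-- source of the ascending move -/
noncomputable def upPrev (i : Nat) : Nat := fld (nodeRec i) 46 8191

/-- rank for the ascending moves -/
noncomputable def upRank (i : Nat) : Nat := fld (nodeRec i) 69 31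

/-- second factor of the ascending move -/
noncomputable def upSec (i : Nat) : T4 :=
  cond (Nat.beq (fld (nodeRec i) 59 1) 1) (nT (upPrev i)) (nT (rootOf i))

/-- the result of the ascending move -/
noncomputable def upT (i : Nat) : T4 :=
  lAct (fld (nodeRec i) 60 7) (rAct (fld (nodeRec i) 66 7)
    (mulT (rAct (fld (nodeRec i) 63 7) (nT (upPrev i))) (upSec i)))

/-- check of the ascending move -/
noncomputable def upOk (i : Nat) : Bool :=
  and (Nat.blt (upPrev i) numN) (and (Nat.blt (upRank (upPrev i)) (upRank i))
    (and (Nat.beq (rootOf (upPrev i)) (rootOf i)) (eqT (upT i) (nT i))))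

/-- all checks on one node -/
noncomputable def nodeOk (i : Nat) : Bool :=
  and (validT (nT i)) (or (Nat.beq (rootOf i) i) (and (dnOk i) (upOk i)))

/-- all checks on all nodes -/
noncomputable def chkNodes : Bool :=
  allR (fun i => or (Nat.ble numN i) (nodeOk i)) 13 0

set_option maxRecDepth 100000 in
theorem chkNodes_ok : chkNodes = true := by decide +kernel

theorem nodeOk_all (i : Nat) (hi : i < numN) : nodeOk i = true := by
  have h := allR_below _ 13 chkNodes_ok i (by unfold numN at hi; omega)
  rcases Bool.or_eq_true_iff.1 h with h | h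
  · have := Nat.le_of_ble_eq_true h
    omega
  · exact h

/-- the key of a quadruple, invariant under right multiplication by `SL(2, 2)` -/
def keyT (t : T4) : Nat :=
  Nat.mul (Nat.mul (Nat.add (Nat.add (Nat.mul 64 t.a) t.c) 4099)
      (Nat.add (Nat.add (Nat.mul 64 t.b) t.d) 4099))
    (Nat.add (Nat.add (Nat.mul 64 (Nat.xor t.a t.b)) (Nat.xor t.c t.d)) 4099)

/-- entry of the coset list -/
noncomputable def covEnt (j : Nat) : Nat :=
  fld (NTree.get covTree (Nat.shiftRight j 5)) (Nat.mul 16 (Nat.land j 31)) 65535

/-- node of an entry -/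
noncomputable def covI (j : Nat) : Nat := Nat.shiftRight (covEnt j) 3

/-- left factor of an entry -/
noncomputable def covH (j : Nat) : Nat := Nat.land (covEnt j) 7

/-- the quadruple of an entry -/
noncomputable def covT (j : Nat) : T4 := lAct (covH j) (nT (covI j))

/-- checks on the coset list -/
noncomputable def chkCov : Bool :=
  allR (fun j => or (Nat.ble 43680 j) (and (Nat.blt (covI j) numN)
    (or (Nat.beq j 43679) (Nat.blt (keyT (covT j)) (keyT (covT (Nat.add j 1))))))) 16 0

set_option maxRecDepth 100000 in
theorem chkCov_ok : chkCov = true := by decide +kernel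

end Vale.Agent.Lib.P183
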