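import Vale.Agent.Lib.P183.Checks
import Vale.Agent.Lib.P183.Defs

/-!
The interval above `SL(2, 2)` in `SL(2, 64)` is order isomorphic to `L7`.
-/
namespace Vale.Agent.Lib.P183

open F64

theorem blt_spec {a b : Nat} (h : Nat.blt a b = true) : a < b := by simpa using h

/-- membership of `a` in the set of naturals below 64 encoded by the bit mask `m` -/
def inM (m a : Nat) : Bool := Nat.beq (Nat.land (Nat.shiftRight m a) 1) 1

/-- the bit mask encodes a subring of the field -/
noncomputable def closedM (m : Nat) : Bool :=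
  and (and (inM m 0) (inM m 1)) (allR (fun a => allR (fun b =>
    or (not (and (inM m a) (inM m b))) (and (inM m (Nat.xor a b)) (inM m (mulN a b)))) 6 0) 6 0)

theorem closed_spec {m : Nat} (h : closedM m = true) {a b : Nat} (ha : a < 64) (hb : b < 64)
    (h1 : inM m a = true) (h2 : inM m b = true) :
    inM m (Nat.xor a b) = true ∧ inM m (mulN a b) = true := by
  have h' := (Bool.and_eq_true_iff.1 h).2
  have h3 := allR_below _ 6 (allR_below _ 6 h' a ha) b hb
  rcases Bool.or_eq_true_iff.1 h3 with h4 | h4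
  · simp [h1, h2] at h4
  · exact Bool.and_eq_true_iff.1 h4

theorem closed_zero {m : Nat} (h : closedM m = true) : inM m 0 = true :=
  (Bool.and_eq_true_iff.1 (Bool.and_eq_true_iff.1 h).1).1

theorem closed_one {m : Nat} (h : closedM m = true) : inM m 1 = true :=
  (Bool.and_eq_true_iff.1 (Bool.and_eq_true_iff.1 h).1).2

/-- matrices with all entries in a subring encoded by a bit mask -/
def allM (m : Nat) (t : T4) : Bool :=
  and (inM m t.a) (and (inM m t.b) (and (inM m t.c) (inM m t.d)))

/-- the group of matrices with all entries in a subring encoded by a bit mask -/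
def subG (m : Nat) (h : closedM m = true) : Subgroup G where
  carrier := {g | allM m (tup g) = true}
  one_mem' := by
    have h0 := closed_zero h
    have h1 := closed_one h
    simp only [Set.mem_ofPred_eq, allM, Bool.and_eq_true]
    exact ⟨h1, h0, h0, h1⟩
  mul_mem' := by
    intro x y hx hy
    simp only [Set.mem_ofPred_eq, allM, Bool.and_eq_true] at hx hy ⊢
    have xa := x.a.lt; have xb := x.b.lt; have xc := x.c.lt; have xd := x.d.lt
    have ya := y.a.lt; have yb := y.b.lt; have yc := y.c.lt; have yd := y.d.lt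
    obtain ⟨x1, x2, x3, x4⟩ := hx
    obtain ⟨y1, y2, y3, y4⟩ := hy
    have aux : ∀ p q r s : Nat, p < 64 → q < 64 → r < 64 → s < 64 → inM m p = true →
        inM m q = true → inM m r = true → inM m s = true →
        inM m (Nat.xor (mulN p q) (mulN r s)) = true := by
      intro p q r s hp hq hr hs h1 h2 h3 h4
      exact (closed_spec h (mulN_lt _ _) (mulN_lt _ _) (closed_spec h hp hq h1 h2).2
        (closed_spec h hr hs h3 h4).2).1
    exact ⟨aux _ _ _ _ xa ya xb yc x1 y1 x2 y3, aux _ _ _ _ xa yb xb yd x1 y2 x2 y4,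
      aux _ _ _ _ xc ya xd yc x3 y1 x4 y3, aux _ _ _ _ xc yb xd yd x3 y2 x4 y4⟩
  inv_mem' := by
    intro x hx
    simp only [Set.mem_ofPred_eq, allM, Bool.and_eq_true] at hx ⊢
    obtain ⟨x1, x2, x3, x4⟩ := hx
    exact ⟨x4, x2, x3, x1⟩

theorem closedM2 : closedM 3 = true := by decide +kernel
theorem closedM4 : closedM 864691128455135235 = true := by decide +kernel
theorem closedM8 : closedM 62963715 = true := by decide +kernel

/-- `SL(2, 2)` inside `SL(2, 64)` -/
def H : Subgroup G := subG 3 closedM2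

theorem hEl_mem (j : Nat) : hEl j ∈ H := by
  have h1 : (1 : G) ∈ H := H.one_mem
  rcases j with _ | _ | _ | _ | _ | _ | j
  · exact h1
  · exact (by decide +kernel : allM 3 (tup (hEl 1)) = true)
  · exact (by decide +kernel : allM 3 (tup (hEl 2)) = true)
  · exact (by decide +kernel : allM 3 (tup (hEl 3)) = true)
  · exact (by decide +kernel : allM 3 (tup (hEl 4)) = true)
  · exact (by decide +kernel : allM 3 (tup (hEl 5)) = true)
  · exact h1

theorem inM3_lt : ∀ a, a < 64 → inM 3 a = true → a < 2 := by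
  have h : allR (fun a => or (not (inM 3 a)) (Nat.blt a 2)) 6 0 = true := by decide +kernel
  intro a ha h1
  have h2 := allR_below _ 6 h a ha
  rcases Bool.or_eq_true_iff.1 h2 with h3 | h3
  · simp [h1] at h3
  · exact blt_spec h3

theorem H_aux : ∀ a b c d : Nat, a < 2 → b < 2 → c < 2 → d < 2 →
    Nat.xor (mulN a d) (mulN b c) = 1 → ∃ j, j < 6 ∧ tup (hEl j) = ⟨a, b, c, d⟩ := by
  intro a b c d ha hb hc hd hdet
  interval_cases a <;> interval_cases b <;> interval_cases c <;> interval_cases d <;>
    first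
    | exact ⟨0, by norm_num, rfl⟩
    | exact ⟨1, by norm_num, rfl⟩
    | exact ⟨2, by norm_num, rfl⟩
    | exact ⟨3, by norm_num, rfl⟩
    | exact ⟨4, by norm_num, rfl⟩
    | exact ⟨5, by norm_num, rfl⟩
    | exact absurd hdet (by decide +kernel)

theorem H_cases (h : G) (hm : h ∈ H) : ∃ j, j < 6 ∧ h = hEl j := by
  have hm' : allM 3 (tup h) = true := hm
  simp only [allM, Bool.and_eq_true] at hm'
  obtain ⟨h1, h2, h3, h4⟩ := hm'
  obtain ⟨j, hj, e⟩ := H_aux h.a.val h.b.val h.c.val h.d.val (inM3_lt _ h.a.lt h1)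
    (inM3_lt _ h.b.lt h2) (inM3_lt _ h.c.lt h3) (inM3_lt _ h.d.lt h4) (congrArg F64.val h.det)
  exact ⟨j, hj, tup_inj e.symm⟩

theorem tup_eq_of (g : G) (x y z w : F64) (h1 : g.a = x) (h2 : g.b = y) (h3 : g.c = z)
    (h4 : g.d = w) : tup g = ⟨x.val, y.val, z.val, w.val⟩ := by
  subst h1 h2 h3 h4; rfl

theorem tup_rAct (g : G) (j : Nat) : tup (g * hEl j) = rAct j (tup g) := by
  rcases j with _ | _ | _ | _ | _ | _ | j
  · change tup (g * 1) = tup g; rw [mul_one]
  · exact tup_eq_of _ g.b g.a g.d g.c (by change g.a * 0 + g.b * 1 = g.b; ring)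
      (by change g.a * 1 + g.b * 0 = g.a; ring) (by change g.c * 0 + g.d * 1 = g.d; ring)
      (by change g.c * 1 + g.d * 0 = g.c; ring)
  · exact tup_eq_of _ g.a (g.a + g.b) g.c (g.c + g.d) (by change g.a * 1 + g.b * 0 = g.a; ring)
      (by change g.a * 1 + g.b * 1 = g.a + g.b; ring) (by change g.c * 1 + g.d * 0 = g.c; ring)
      (by change g.c * 1 + g.d * 1 = g.c + g.d; ring)
  · exact tup_eq_of _ (g.a + g.b) g.b (g.c + g.d) g.d
      (by change g.a * 1 + g.b * 1 = g.a + g.b; ring) (by change g.a * 0 + g.b * 1 = g.b; ring)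
      (by change g.c * 1 + g.d * 1 = g.c + g.d; ring) (by change g.c * 0 + g.d * 1 = g.d; ring)
  · exact tup_eq_of _ g.b (g.a + g.b) g.d (g.c + g.d) (by change g.a * 0 + g.b * 1 = g.b; ring)
      (by change g.a * 1 + g.b * 1 = g.a + g.b; ring) (by change g.c * 0 + g.d * 1 = g.d; ring)
      (by change g.c * 1 + g.d * 1 = g.c + g.d; ring)
  · exact tup_eq_of _ (g.a + g.b) g.a (g.c + g.d) g.c
      (by change g.a * 1 + g.b * 1 = g.a + g.b; ring) (by change g.a * 1 + g.b * 0 = g.a; ring)
      (by change g.c * 1 + g.d * 1 = g.c + g.d; ring) (by change g.c * 1 + g.d * 0 = g.c; ring)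
  · change tup (g * 1) = tup g; rw [mul_one]

theorem tup_lAct (g : G) (j : Nat) : tup (hEl j * g) = lAct j (tup g) := by
  rcases j with _ | _ | _ | _ | _ | _ | j
  · change tup (1 * g) = tup g; rw [one_mul]
  · exact tup_eq_of _ g.c g.d g.a g.b (by change 0 * g.a + 1 * g.c = g.c; ring)
      (by change 0 * g.b + 1 * g.d = g.d; ring) (by change 1 * g.a + 0 * g.c = g.a; ring)
      (by change 1 * g.b + 0 * g.d = g.b; ring)
  · exact tup_eq_of _ (g.a + g.c) (g.b + g.d) g.c g.d
      (by change 1 * g.a + 1 * g.c = g.a + g.c; ring)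
      (by change 1 * g.b + 1 * g.d = g.b + g.d; ring)
      (by change 0 * g.a + 1 * g.c = g.c; ring) (by change 0 * g.b + 1 * g.d = g.d; ring)
  · exact tup_eq_of _ g.a g.b (g.a + g.c) (g.b + g.d)
      (by change 1 * g.a + 0 * g.c = g.a; ring) (by change 1 * g.b + 0 * g.d = g.b; ring)
      (by change 1 * g.a + 1 * g.c = g.a + g.c; ring)
      (by change 1 * g.b + 1 * g.d = g.b + g.d; ring)
  · exact tup_eq_of _ g.c g.d (g.a + g.c) (g.b + g.d)
      (by change 0 * g.a + 1 * g.c = g.c; ring) (by change 0 * g.b + 1 * g.d = g.d; ring)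
      (by change 1 * g.a + 1 * g.c = g.a + g.c; ring)
      (by change 1 * g.b + 1 * g.d = g.b + g.d; ring)
  · exact tup_eq_of _ (g.a + g.c) (g.b + g.d) g.a g.b
      (by change 1 * g.a + 1 * g.c = g.a + g.c; ring)
      (by change 1 * g.b + 1 * g.d = g.b + g.d; ring)
      (by change 1 * g.a + 0 * g.c = g.a; ring) (by change 1 * g.b + 0 * g.d = g.b; ring)
  · change tup (1 * g) = tup g; rw [one_mul]

/-- the representative of a double coset, as a group element -/
noncomputable def nodeG (i : Nat) : G := mkG (nT i)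

theorem nodeOk_valid {i : Nat} (hi : i < numN) : validT (nT i) = true :=
  (Bool.and_eq_true_iff.1 (nodeOk_all i hi)).1

theorem tup_nodeG {i : Nat} (hi : i < numN) : tup (nodeG i) = nT i := tup_mkG (nodeOk_valid hi)

theorem rootOf_lt {i : Nat} (hi : i < numN) : rootOf i < numN := by
  unfold rootOf numN
  cases Nat.blt i 7275 <;> cases Nat.blt i 7290 <;> cases Nat.blt i 7296 <;>
    cases Nat.blt i 7299 <;> cases Nat.blt i 7301 <;> cases Nat.blt i 7302 <;> simp

/-- subgroups above `H` contain products of three kinds of factors -/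
theorem mem_of_step {K : Subgroup G} (hK : H ≤ K) {x y z : G} {h1 h2 h3 : Nat} (hx : x ∈ K)
    (hy : y ∈ K) (e : lAct h1 (rAct h3 (mulT (rAct h2 (tup x)) (tup y))) = tup z) : z ∈ K := by
  have e2 : tup (hEl h1 * (x * hEl h2 * y * hEl h3)) = tup z := by
    rw [tup_lAct, tup_rAct, tup_mul, tup_rAct]; exact e
  rw [← tup_inj e2]
  exact K.mul_mem (hK (hEl_mem _)) (K.mul_mem (K.mul_mem (K.mul_mem hx (hK (hEl_mem _))) hy)
    (hK (hEl_mem _)))

theorem down_mem {K : Subgroup G} (hK : H ≤ K) :
    ∀ i, i < numN → nodeG i ∈ K → nodeG (rootOf i) ∈ K := by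
  intro i
  induction i using Nat.strong_induction_on with
  | _ i ih =>
    intro hi hm
    have h := (Bool.and_eq_true_iff.1 (nodeOk_all i hi)).2
    rcases Bool.or_eq_true_iff.1 h with h0 | h0
    · have h1 : rootOf i = i := Nat.eq_of_beq_eq_true h0
      rwa [h1]
    · have h1 := (Bool.and_eq_true_iff.1 h0).1
      simp only [dnOk, Bool.and_eq_true, Nat.blt_eq, Nat.beq_eq] at h1
      obtain ⟨h2, h3, h4⟩ := h1
      have h2' : dnNext i < numN := lt_trans h2 hi
      have h5 : nodeG (dnNext i) ∈ K := by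
        refine mem_of_step hK (h1 := fld (nodeRec i) 37 7) (h2 := fld (nodeRec i) 40 7)
          (h3 := fld (nodeRec i) 43 7) hm hm ?_
        rw [tup_nodeG hi, tup_nodeG h2']
        exact eqT_spec h4
      have := ih _ h2 h2' h5
      rwa [h3] at this

theorem up_mem {K : Subgroup G} (hK : H ≤ K) :
    ∀ r i, upRank i = r → i < numN → nodeG (rootOf i) ∈ K → nodeG i ∈ K := by
  intro r
  induction r using Nat.strong_induction_on with
  | _ r ih =>
    intro i hr hi hm
    have h := (Bool.and_eq_true_iff.1 (nodeOk_all i hi)).2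
    rcases Bool.or_eq_true_iff.1 h with h0 | h0
    · have h1 : rootOf i = i := Nat.eq_of_beq_eq_true h0
      rwa [h1] at hm
    · have h1 := (Bool.and_eq_true_iff.1 h0).2
      simp only [upOk, Bool.and_eq_true, Nat.blt_eq, Nat.beq_eq] at h1
      obtain ⟨h2, h3, h4, h5⟩ := h1
      have h6 : nodeG (upPrev i) ∈ K := by
        refine ih _ (hr ▸ h3) _ rfl h2 ?_
        rwa [h4]
      have hroot := rootOf_lt hi
      by_cases hf : Nat.beq (fld (nodeRec i) 59 1) 1 = true
      · refine mem_of_step hK (h1 := fld (nodeRec i) 60 7) (h2 := fld (nodeRec i) 63 7)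
          (h3 := fld (nodeRec i) 66 7) h6 h6 ?_
        rw [tup_nodeG h2, tup_nodeG hi]
        have := eqT_spec h5
        simp only [upT, upSec, hf, cond_true] at this
        exact this
      · refine mem_of_step hK (h1 := fld (nodeRec i) 60 7) (h2 := fld (nodeRec i) 63 7)
          (h3 := fld (nodeRec i) 66 7) h6 hm ?_
        rw [tup_nodeG h2, tup_nodeG hi, tup_nodeG hroot]
        have := eqT_spec h5
        have hf' : Nat.beq (fld (nodeRec i) 59 1) 1 = false := Bool.eq_false_iff.2 hf
        simp only [upT, upSec, hf', cond_false] at this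
        exact this

theorem mem_iff_root {K : Subgroup G} (hK : H ≤ K) {i : Nat} (hi : i < numN) :
    nodeG i ∈ K ↔ nodeG (rootOf i) ∈ K :=
  ⟨down_mem hK i hi, up_mem hK _ i rfl hi⟩

theorem keyT_rAct (t : T4) (j : Nat) (hj : j < 6) : keyT (rAct j t) = keyT t := by
  have x1 : ∀ a b : Nat, Nat.xor a (Nat.xor a b) = b := by
    intro a b
    have : a ^^^ (a ^^^ b) = b := by rw [← Nat.xor_assoc, Nat.xor_self, Nat.zero_xor]
    exact this
  have x2 : ∀ a b : Nat, Nat.xor (Nat.xor a b) a = b := by
    intro a b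
    have : (a ^^^ b) ^^^ a = b := by rw [Nat.xor_comm, ← Nat.xor_assoc, Nat.xor_self, Nat.zero_xor]
    exact this
  have x3 : ∀ a b : Nat, Nat.xor (Nat.xor a b) b = a := by
    intro a b
    have : (a ^^^ b) ^^^ b = a := by rw [Nat.xor_assoc, Nat.xor_self, Nat.xor_zero]
    exact this
  have x4 : ∀ a b : Nat, Nat.xor b (Nat.xor a b) = a := by
    intro a b
    have : b ^^^ (a ^^^ b) = a := by
      rw [Nat.xor_comm a b, ← Nat.xor_assoc, Nat.xor_self, Nat.zero_xor]
    exact this
  have x5 : ∀ a b : Nat, Nat.xor a b = Nat.xor b a := fun a b => Nat.xor_comm a b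
  obtain ⟨a, b, c, d⟩ := t
  interval_cases j <;>
    simp only [rAct, keyT, x1, x2, x3, x4, Nat.mul_eq, Nat.add_eq] <;>
    first
    | ring1
    | (rw [x5 b a, x5 d c]; ring1)

/-- the element of `G` of an entry of the coset list -/
noncomputable def covG (j : Nat) : G := hEl (covH j) * nodeG (covI j)

theorem cov_spec (j : Nat) (hj : j < 43680) : covI j < numN ∧
    (j ≠ 43679 → keyT (covT j) < keyT (covT (j + 1))) := by
  have h := allR_below _ 16 chkCov_ok j (by omega)
  rcases Bool.or_eq_true_iff.1 h with h0 | h0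
  · have := Nat.le_of_ble_eq_true h0
    omega
  · rw [Bool.and_eq_true_iff] at h0
    refine ⟨blt_spec h0.1, fun hne => ?_⟩
    rcases Bool.or_eq_true_iff.1 h0.2 with h1 | h1
    · exact absurd (Nat.eq_of_beq_eq_true h1) hne
    · exact blt_spec h1

theorem tup_covG (j : Nat) (hj : j < 43680) : tup (covG j) = covT j := by
  unfold covG covT
  rw [tup_lAct, tup_nodeG (cov_spec j hj).1]

theorem covKey_strictMono :
    StrictMono (fun e : Fin 43680 => keyT (tup (covG e.1))) := by
  apply Fin.strictMono_iff_lt_succ.2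
  intro i
  have hi := i.2
  have h := (cov_spec i.1 (by omega)).2 (by omega)
  simp only [Fin.val_castSucc, Fin.val_succ]
  rw [tup_covG _ (by omega), tup_covG _ (by omega)]
  exact h

theorem tup_hEl_inj : ∀ i j : Fin 6, tup (hEl i.1) = tup (hEl j.1) → i = j := by
  intro i j h
  fin_cases i <;> fin_cases j <;>
    first
    | rfl
    | exact absurd (congrArg (fun t => (t.a, t.b, t.c, t.d)) h) (by decide +kernel)

theorem cover (g : G) : ∃ i, i < numN ∧ ∃ j j', g = hEl j * nodeG i * hEl j' := by
  classical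
  have : Fintype G := Fintype.ofFinite G
  let φ : Fin 43680 × Fin 6 → G := fun p => covG p.1.1 * hEl p.2.1
  have inj : Function.Injective φ := by
    rintro ⟨e1, j1⟩ ⟨e2, j2⟩ h
    have h1 : keyT (tup (covG e1.1)) = keyT (tup (covG e2.1)) := by
      have := congrArg (fun x => keyT (tup x)) h
      simp only [φ, tup_rAct, keyT_rAct _ _ j1.2, keyT_rAct _ _ j2.2] at this
      exact this
    have h2 : e1 = e2 := covKey_strictMono.injective h1
    subst h2
    have h3 : hEl j1.1 = hEl j2.1 := mul_left_cancel h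
    have h4 : j1 = j2 := tup_hEl_inj _ _ (congrArg tup h3)
    rw [h4]
  have bij : Function.Bijective φ := by
    refine (Fintype.bijective_iff_injective_and_card φ).2 ⟨inj, ?_⟩
    have h1 := Fintype.card_le_of_injective φ inj
    have h2 := G.card_le
    have h3 : Fintype.card (Fin 43680 × Fin 6) = 262080 := by simp
    omega
  obtain ⟨⟨e, j⟩, he⟩ := bij.2 g
  exact ⟨covI e.1, (cov_spec e.1 e.2).1, covH e.1, j.1, he.symm⟩

end Vale.Agent.Lib.P183
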