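import Mathlib
import Vale.Agent.Lib.P183.Defs

/-!
For a finite group `G` and `H ≤ G`, the congruences of the coset space `G ⧸ H` with all left
translations as unary operations are in order preserving bijection with the interval `[H, G]`.
-/
namespace Vale.Agent.Lib.P183

open Pointwise

variable {G : Type} [Group G]

/-- The left translation by `g`, as a unary operation on `G ⧸ H`. -/
def leftOp (H : Subgroup G) (g : G) : FinOp (G ⧸ H) := ⟨1, fun x => g • x 0⟩

/-- The algebra operations given by a list of elements. -/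
def leftOps (H : Subgroup G) (l : List G) : List (FinOp (G ⧸ H)) := l.map (leftOp H)

theorem isCong_leftOps (H : Subgroup G) (l : List G) (hl : ∀ g, g ∈ l) (s : Setoid (G ⧸ H)) :
    IsCong (leftOps H l) s ↔ ∀ (g : G) (x y : G ⧸ H), s.r x y → s.r (g • x) (g • y) := by
  constructor
  · intro h g x y hxy
    have := h (leftOp H g) (List.mem_map.2 ⟨g, hl g, rfl⟩) (fun _ => x) (fun _ => y)
      (fun _ => hxy)
    exact this
  · intro h f hf x y hxy
    obtain ⟨g, -, rfl⟩ := List.mem_map.1 hf
    exact h g _ _ (hxy (0 : Fin 1))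

/-- The subgroup attached to a compatible equivalence relation. -/
def subOf (H : Subgroup G) (s : Setoid (G ⧸ H))
    (hs : ∀ (g : G) (x y : G ⧸ H), s.r x y → s.r (g • x) (g • y)) : Subgroup G where
  carrier := {g | s.r ((g : G ⧸ H)) ((1 : G) : G ⧸ H)}
  one_mem' := s.iseqv.refl _
  mul_mem' := by
    intro a b ha hb
    have h1 := hs a _ _ hb
    have e1 : a • ((b : G) : G ⧸ H) = ((a * b : G) : G ⧸ H) := rfl
    have e2 : a • (((1 : G)) : G ⧸ H) = ((a : G) : G ⧸ H) := by
      change ((a * 1 : G) : G ⧸ H) = _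
      rw [mul_one]
    rw [e1, e2] at h1
    exact s.iseqv.trans h1 ha
  inv_mem' := by
    intro a ha
    have h1 := hs a⁻¹ _ _ ha
    have e1 : a⁻¹ • ((a : G) : G ⧸ H) = ((1 : G) : G ⧸ H) := by
      change ((a⁻¹ * a : G) : G ⧸ H) = _
      rw [inv_mul_cancel]
    have e2 : a⁻¹ • (((1 : G)) : G ⧸ H) = ((a⁻¹ : G) : G ⧸ H) := by
      change ((a⁻¹ * 1 : G) : G ⧸ H) = _
      rw [mul_one]
    rw [e1, e2] at h1
    exact s.iseqv.symm h1

/-- The equivalence relation on `G ⧸ H` attached to a subgroup `K ≥ H`. -/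
def setoidOf (H K : Subgroup G) (hK : H ≤ K) : Setoid (G ⧸ H) where
  r x y := ∀ a b : G, (a : G ⧸ H) = x → (b : G ⧸ H) = y → a⁻¹ * b ∈ K
  iseqv := by
    refine ⟨?_, ?_, ?_⟩
    · intro x a b ha hb
      exact hK (QuotientGroup.eq.1 (ha.trans hb.symm))
    · intro x y h a b ha hb
      have := h b a hb ha
      have h2 := K.inv_mem this
      simpa using h2
    · intro x y z h1 h2 a c ha hc
      obtain ⟨b, hb⟩ := QuotientGroup.mk_surjective y
      have := K.mul_mem (h1 a b ha hb) (h2 b c hb hc)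
      simpa [mul_assoc] using this

theorem setoidOf_compat (H K : Subgroup G) (hK : H ≤ K) (g : G) (x y : G ⧸ H)
    (h : (setoidOf H K hK).r x y) : (setoidOf H K hK).r (g • x) (g • y) := by
  intro a b ha hb
  have ha' : ((g⁻¹ * a : G) : G ⧸ H) = x := by
    have : g⁻¹ • ((a : G) : G ⧸ H) = ((g⁻¹ * a : G) : G ⧸ H) := rfl
    rw [← this, ha, inv_smul_smul]
  have hb' : ((g⁻¹ * b : G) : G ⧸ H) = y := by
    have : g⁻¹ • ((b : G) : G ⧸ H) = ((g⁻¹ * b : G) : G ⧸ H) := rfl
    rw [← this, hb, inv_smul_smul]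
  have := h _ _ ha' hb'
  simpa [mul_assoc] using this

theorem le_subOf (H : Subgroup G) (s : Setoid (G ⧸ H))
    (hs : ∀ (g : G) (x y : G ⧸ H), s.r x y → s.r (g • x) (g • y)) : H ≤ subOf H s hs := by
  intro h hh
  have : (h : G ⧸ H) = ((1 : G) : G ⧸ H) := by
    rw [QuotientGroup.eq]
    simpa using hh
  change s.r _ _
  rw [this]

/-- `G ⧸ H` with all left translations: congruences correspond to the interval above `H`. -/
noncomputable def conIso (H : Subgroup G) (l : List G) (hl : ∀ g, g ∈ l) :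
    {s : Setoid (G ⧸ H) // IsCong (leftOps H l) s} ≃o Set.Ici H := by
  refine Equiv.toOrderIso
    { toFun := fun s => ⟨subOf H s.1 ((isCong_leftOps H l hl s.1).1 s.2),
        le_subOf H s.1 ((isCong_leftOps H l hl s.1).1 s.2)⟩
      invFun := fun K => ⟨setoidOf H K.1 K.2,
        (isCong_leftOps H l hl _).2 (setoidOf_compat H K.1 K.2)⟩
      left_inv := ?_
      right_inv := ?_ } ?_ ?_
  · rintro ⟨s, hs⟩
    have hs' := (isCong_leftOps H l hl s).1 hs
    apply Subtype.ext
    apply Setoid.ext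
    intro x y
    obtain ⟨a, rfl⟩ := QuotientGroup.mk_surjective x
    obtain ⟨b, rfl⟩ := QuotientGroup.mk_surjective y
    constructor
    · intro h
      have h1 : s.r ((a⁻¹ * b : G) : G ⧸ H) ((1 : G) : G ⧸ H) := h a b rfl rfl
      have h2 := hs' a _ _ h1
      have e1 : a • ((a⁻¹ * b : G) : G ⧸ H) = ((b : G) : G ⧸ H) := by
        change ((a * (a⁻¹ * b) : G) : G ⧸ H) = _
        rw [mul_inv_cancel_left]
      have e2 : a • (((1 : G)) : G ⧸ H) = ((a : G) : G ⧸ H) := by
        change ((a * 1 : G) : G ⧸ H) = _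
        rw [mul_one]
      rw [e1, e2] at h2
      exact s.iseqv.symm h2
    · intro h a' b' ha hb
      have h1 : s.r ((a' : G) : G ⧸ H) ((b' : G) : G ⧸ H) := by
        rw [ha, hb]; exact h
      have h2 := hs' a'⁻¹ _ _ h1
      have e1 : a'⁻¹ • ((a' : G) : G ⧸ H) = ((1 : G) : G ⧸ H) := by
        change ((a'⁻¹ * a' : G) : G ⧸ H) = _
        rw [inv_mul_cancel]
      have e2 : a'⁻¹ • ((b' : G) : G ⧸ H) = ((a'⁻¹ * b' : G) : G ⧸ H) := rfl
      rw [e1, e2] at h2
      exact s.iseqv.symm h2
  · rintro ⟨K, hK⟩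
    apply Subtype.ext
    ext g
    constructor
    · intro h
      have := (h g 1 rfl rfl : g⁻¹ * 1 ∈ K)
      simpa using this
    · intro hg a b ha hb
      have h1 : g⁻¹ * a ∈ H := QuotientGroup.eq.1 ha.symm
      have h2 : (1 : G)⁻¹ * b ∈ H := QuotientGroup.eq.1 hb.symm
      have h1' : g⁻¹ * a ∈ K := hK h1
      have h2' : b ∈ K := by simpa using hK h2
      have ha' : a ∈ K := by
        have := K.mul_mem hg h1'
        simpa using this
      exact K.mul_mem (K.inv_mem ha') h2'
  · intro s s' hss g hg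
    exact hss hg
  · intro K K' hKK x y h a b ha hb
    exact hKK (h a b ha hb)

/-- An interval of the subgroup lattice of a finite group is representable. -/
theorem representable_of_interval {L : Type} [PartialOrder L] (hL : IsGroupInterval L) :
    Representable L := by
  obtain ⟨G, _, _, H, ⟨e⟩⟩ := hL
  obtain ⟨l, -, hl⟩ := Finite.exists_univ_list G
  refine ⟨G ⧸ H, inferInstance, inferInstance, leftOps H l, ⟨e.trans (conIso H l hl).symm⟩⟩

end Vale.Agent.Lib.P183
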