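import Vale.Agent.Lib.P183.Classify
import Vale.Agent.Lib.P183.Interval

/-!
`L7` is isomorphic to the interval above `SL(2, 2)` in the subgroup lattice of `SL(2, 64)`.
-/
namespace Vale.Agent.Lib.P183

instance : DecidableLE L7 := fun a b => (inferInstance : Decidable (L7.le a b))

/-- the node generating the subgroup attached to an element of `L7` -/
def rt : L7 → Nat
  | .bot => 7302
  | .top => 0
  | .r => 7275
  | .s => 7290
  | .p => 7296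
  | .x => 7299
  | .q => 7301

theorem rt_lt (y : L7) : rt y < numN := by
  cases y <;> decide

/-- the subgroup attached to an element of `L7` -/
noncomputable def KK (y : L7) : Subgroup G := Subgroup.closure ((H : Set G) ∪ {nodeG (rt y)})

theorem H_le_KK (y : L7) : H ≤ KK y := fun _ hh => Subgroup.subset_closure (Or.inl hh)

theorem node_mem_KK (y : L7) : nodeG (rt y) ∈ KK y := Subgroup.subset_closure (Or.inr rfl)

theorem rootOf_rt (i : Nat) : ∃ y, rootOf i = rt y := by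
  unfold rootOf
  cases Nat.blt i 7275
  · cases Nat.blt i 7290
    · cases Nat.blt i 7296
      · cases Nat.blt i 7299
        · cases Nat.blt i 7301
          · cases Nat.blt i 7302
            · exact ⟨.bot, rfl⟩
            · exact ⟨.q, rfl⟩
          · exact ⟨.x, rfl⟩
        · exact ⟨.p, rfl⟩
      · exact ⟨.s, rfl⟩
    · exact ⟨.r, rfl⟩
  · exact ⟨.top, rfl⟩

theorem determined (g : G) : ∃ y, ∀ K : Subgroup G, H ≤ K → (g ∈ K ↔ nodeG (rt y) ∈ K) := by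
  obtain ⟨i, hi, j, j', rfl⟩ := cover g
  obtain ⟨y, hy⟩ := rootOf_rt i
  refine ⟨y, fun K hK => ?_⟩
  rw [← hy, ← mem_iff_root hK hi]
  constructor
  · intro h
    have := K.mul_mem (K.mul_mem (K.inv_mem (hK (hEl_mem j))) h) (K.inv_mem (hK (hEl_mem j')))
    simpa [mul_assoc] using this
  · intro h
    exact K.mul_mem (K.mul_mem (hK (hEl_mem j)) h) (hK (hEl_mem j'))

theorem ext_of_roots {K K' : Subgroup G} (hK : H ≤ K) (hK' : H ≤ K')
    (h : ∀ y, nodeG (rt y) ∈ K ↔ nodeG (rt y) ∈ K') : K = K' := by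
  ext g
  obtain ⟨y, hy⟩ := determined g
  rw [hy K hK, hy K' hK', h y]

/-- check of a derivation of one node from two nodes -/
noncomputable def ruleB (ru rv rw u v h1 h2 h3 t : Nat) : Bool :=
  and (and (Nat.blt u numN) (and (Nat.blt v numN) (Nat.blt t numN)))
    (and (and (Nat.beq (rootOf u) ru) (and (Nat.beq (rootOf v) rv) (Nat.beq (rootOf t) rw)))
      (eqT (lAct h1 (rAct h3 (mulT (rAct h2 (nT u)) (nT v)))) (nT t)))

theorem rule_apply {K : Subgroup G} (hK : H ≤ K) {ru rv rw u v h1 h2 h3 t : Nat}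
    (h : ruleB ru rv rw u v h1 h2 h3 t = true) (hu : nodeG ru ∈ K) (hv : nodeG rv ∈ K) :
    nodeG rw ∈ K := by
  simp only [ruleB, Bool.and_eq_true, Nat.blt_eq, Nat.beq_eq] at h
  obtain ⟨⟨hu', hv', ht'⟩, ⟨e1, e2, e3⟩, e4⟩ := h
  have m1 : nodeG u ∈ K := by
    rw [mem_iff_root hK hu', e1]; exact hu
  have m2 : nodeG v ∈ K := by
    rw [mem_iff_root hK hv', e2]; exact hv
  have m3 : nodeG t ∈ K := by
    refine mem_of_step hK (h1 := h1) (h2 := h2) (h3 := h3) m1 m2 ?_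
    rw [tup_nodeG hu', tup_nodeG hv', tup_nodeG ht']
    exact eqT_spec e4
  rw [mem_iff_root hK ht', e3] at m3
  exact m3

theorem bot_mem {K : Subgroup G} (hK : H ≤ K) : nodeG (rt .bot) ∈ K := by
  apply hK
  change allM 3 (tup (nodeG 7302)) = true
  rw [tup_nodeG (by decide)]
  decide +kernel

theorem f_sq {K : Subgroup G} (hK : H ≤ K) (h : nodeG (rt .s) ∈ K) : nodeG (rt .q) ∈ K :=
  rule_apply hK (ru := 7290) (rv := 7290) (u := 7290) (v := 7293) (h1 := 1) (h2 := 0) (h3 := 3)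
    (t := 7301) (by decide +kernel) h h

theorem f_sp {K : Subgroup G} (hK : H ≤ K) (h : nodeG (rt .s) ∈ K) : nodeG (rt .p) ∈ K :=
  rule_apply hK (ru := 7290) (rv := 7290) (u := 7290) (v := 7291) (h1 := 1) (h2 := 0) (h3 := 2)
    (t := 7298) (by decide +kernel) h h

theorem f_rq {K : Subgroup G} (hK : H ≤ K) (h : nodeG (rt .r) ∈ K) : nodeG (rt .q) ∈ K :=
  rule_apply hK (ru := 7275) (rv := 7275) (u := 7275) (v := 7277) (h1 := 1) (h2 := 0) (h3 := 2)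
    (t := 7301) (by decide +kernel) h h

theorem f_qps {K : Subgroup G} (hK : H ≤ K) (h : nodeG (rt .q) ∈ K) (h' : nodeG (rt .p) ∈ K) :
    nodeG (rt .s) ∈ K :=
  rule_apply hK (ru := 7301) (rv := 7296) (u := 7301) (v := 7296) (h1 := 0) (h2 := 0) (h3 := 5)
    (t := 7290) (by decide +kernel) h h'

theorem f_xqt {K : Subgroup G} (hK : H ≤ K) (h : nodeG (rt .x) ∈ K) (h' : nodeG (rt .q) ∈ K) :
    nodeG (rt .top) ∈ K :=
  rule_apply hK (ru := 7299) (rv := 7301) (u := 7299) (v := 7301) (h1 := 1) (h2 := 0) (h3 := 4)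
    (t := 2761) (by decide +kernel) h h'

theorem f_xpt {K : Subgroup G} (hK : H ≤ K) (h : nodeG (rt .x) ∈ K) (h' : nodeG (rt .p) ∈ K) :
    nodeG (rt .top) ∈ K :=
  rule_apply hK (ru := 7299) (rv := 7296) (u := 7299) (v := 7296) (h1 := 4) (h2 := 0) (h3 := 1)
    (t := 5625) (by decide +kernel) h h'

theorem f_rpt {K : Subgroup G} (hK : H ≤ K) (h : nodeG (rt .r) ∈ K) (h' : nodeG (rt .p) ∈ K) :
    nodeG (rt .top) ∈ K :=
  rule_apply hK (ru := 7275) (rv := 7296) (u := 7275) (v := 7296) (h1 := 3) (h2 := 0) (h3 := 2)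
    (t := 6091) (by decide +kernel) h h'

theorem f_tr {K : Subgroup G} (hK : H ≤ K) (h : nodeG (rt .top) ∈ K) : nodeG (rt .r) ∈ K :=
  rule_apply hK (ru := 0) (rv := 0) (u := 0) (v := 33) (h1 := 1) (h2 := 1) (h3 := 1)
    (t := 7284) (by decide +kernel) h h

theorem f_ts {K : Subgroup G} (hK : H ≤ K) (h : nodeG (rt .top) ∈ K) : nodeG (rt .s) ∈ K :=
  rule_apply hK (ru := 0) (rv := 0) (u := 0) (v := 474) (h1 := 1) (h2 := 1) (h3 := 4)
    (t := 7290) (by decide +kernel) h h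

theorem f_tx {K : Subgroup G} (hK : H ≤ K) (h : nodeG (rt .top) ∈ K) : nodeG (rt .x) ∈ K :=
  rule_apply hK (ru := 0) (rv := 0) (u := 0) (v := 212) (h1 := 3) (h2 := 1) (h3 := 2)
    (t := 7300) (by decide +kernel) h h

/-- membership in a list of quadruples -/
def inL (t : T4) (E : List T4) : Bool := E.any (eqT t)

/-- a list of quadruples contains the identity and is closed under right multiplication by
`SL(2, 2)`, by `w` and by the inverse of `w` -/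
def chkE (E : List T4) (w : T4) : Bool :=
  and (inL ⟨1, 0, 0, 1⟩ E) (E.all (fun t => and ([0, 1, 2, 3, 4, 5].all (fun j => inL (rAct j t) E))
    (and (inL (mulT t w) E) (inL (mulT t ⟨w.d, w.b, w.c, w.a⟩) E))))

theorem inL_spec {t : T4} {E : List T4} (h : inL t E = true) : t ∈ E := by
  obtain ⟨u, hu, e⟩ := List.any_eq_true.1 h
  rwa [eqT_spec e]

theorem closure_list (E : List T4) (g₀ : G) (hchk : chkE E (tup g₀) = true) :
    ∀ x ∈ Subgroup.closure ((H : Set G) ∪ {g₀}), inL (tup x) E = true := by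
  rw [chkE, Bool.and_eq_true_iff] at hchk
  obtain ⟨h1, h2⟩ := hchk
  have h2' : ∀ x : G, inL (tup x) E = true → _ := fun x hx => List.all_eq_true.1 h2 _ (inL_spec hx)
  have hH : ∀ x : G, inL (tup x) E = true → ∀ y ∈ H, inL (tup (x * y)) E = true := by
    intro x hx y hy
    obtain ⟨j, hj, rfl⟩ := H_cases y hy
    have := (Bool.and_eq_true_iff.1 (h2' x hx)).1
    rw [tup_rAct]
    apply List.all_eq_true.1 this
    interval_cases j <;> simp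
  intro x hx
  induction hx using Subgroup.closure_induction_right with
  | one => exact h1
  | mul_right x _ y hy ih =>
    rcases hy with hy | hy
    · exact hH x ih y hy
    · rw [Set.mem_singleton_iff] at hy
      subst hy
      exact (Bool.and_eq_true_iff.1 (Bool.and_eq_true_iff.1 (h2' x ih)).2).1
  | mul_inv_cancel x _ y hy ih =>
    rcases hy with hy | hy
    · exact hH x ih _ (H.inv_mem hy)
    · rw [Set.mem_singleton_iff] at hy
      subst hy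
      exact (Bool.and_eq_true_iff.1 (Bool.and_eq_true_iff.1 (h2' x ih)).2).2

/-- a dihedral group of order 18, as a list of quadruples -/
def E18 : List T4 := [⟨0, 1, 1, 0⟩, ⟨0, 1, 1, 1⟩, ⟨1, 0, 0, 1⟩, ⟨1, 0, 1, 1⟩, ⟨1, 1, 0, 1⟩, ⟨1, 1, 1, 0⟩, ⟨14, 23, 23, 25⟩, ⟨14, 23, 25, 14⟩, ⟨14, 25, 23, 14⟩, ⟨14, 25, 25, 23⟩, ⟨23, 14, 14, 25⟩, ⟨23, 14, 25, 23⟩, ⟨23, 25, 14, 23⟩, ⟨23, 25, 25, 14⟩, ⟨25, 14, 14, 23⟩, ⟨25, 14, 23, 25⟩, ⟨25, 23, 14, 25⟩, ⟨25, 23, 23, 14⟩]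

/-- a dihedral group of order 42, as a list of quadruples -/
def E42 : List T4 := [⟨0, 1, 1, 0⟩, ⟨0, 1, 1, 1⟩, ⟨1, 0, 0, 1⟩, ⟨1, 0, 1, 1⟩, ⟨1, 1, 0, 1⟩, ⟨1, 1, 1, 0⟩, ⟨15, 33, 33, 46⟩, ⟨15, 33, 46, 15⟩, ⟨15, 46, 33, 15⟩, ⟨15, 46, 46, 33⟩, ⟨22, 39, 39, 49⟩, ⟨22, 39, 49, 22⟩, ⟨22, 49, 39, 22⟩, ⟨22, 49, 49, 39⟩, ⟨24, 37, 37, 61⟩, ⟨24, 37, 61, 24⟩, ⟨24, 61, 37, 24⟩, ⟨24, 61, 61, 37⟩, ⟨33, 15, 15, 46⟩, ⟨33, 15, 46, 33⟩, ⟨33, 46, 15, 33⟩, ⟨33, 46, 46, 15⟩, ⟨37, 24, 24, 61⟩, ⟨37, 24, 61, 37⟩, ⟨37, 61, 24, 37⟩, ⟨37, 61, 61, 24⟩, ⟨39, 22, 22, 49⟩, ⟨39, 22, 49, 39⟩, ⟨39, 49, 22, 39⟩, ⟨39, 49, 49, 22⟩, ⟨46, 15, 15, 33⟩, ⟨46, 15, 33, 46⟩, ⟨46, 33, 15, 46⟩, ⟨46, 33, 33, 15⟩, ⟨49, 22, 22, 39⟩, ⟨49, 22, 39, 49⟩, ⟨49, 39, 22, 49⟩, ⟨49, 39, 39, 22⟩, ⟨61, 24, 24, 37⟩, ⟨61, 24, 37, 61⟩, ⟨61, 37, 24, 61⟩, ⟨61, 37, 37, 24⟩]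

/-- a dihedral group of order 126, as a list of quadruples -/
def E126 : List T4 := [⟨0, 1, 1, 0⟩, ⟨0, 1, 1, 1⟩, ⟨1, 0, 0, 1⟩, ⟨1, 0, 1, 1⟩, ⟨1, 1, 0, 1⟩, ⟨1, 1, 1, 0⟩, ⟨6, 51, 51, 53⟩, ⟨6, 51, 53, 6⟩, ⟨6, 53, 51, 6⟩, ⟨6, 53, 53, 51⟩, ⟨11, 35, 35, 40⟩, ⟨11, 35, 40, 11⟩, ⟨11, 40, 35, 11⟩, ⟨11, 40, 40, 35⟩, ⟨14, 23, 23, 25⟩, ⟨14, 23, 25, 14⟩, ⟨14, 25, 23, 14⟩, ⟨14, 25, 25, 23⟩, ⟨15, 33, 33, 46⟩, ⟨15, 33, 46, 15⟩, ⟨15, 46, 33, 15⟩, ⟨15, 46, 46, 33⟩, ⟨20, 45, 45, 57⟩, ⟨20, 45, 57, 20⟩, ⟨20, 57, 45, 20⟩, ⟨20, 57, 57, 45⟩, ⟨22, 39, 39, 49⟩, ⟨22, 39, 49, 22⟩, ⟨22, 49, 39, 22⟩, ⟨22, 49, 49, 39⟩, ⟨23, 14, 14, 25⟩, ⟨23, 14, 25, 23⟩, ⟨23, 25, 14, 23⟩, ⟨23, 25, 25, 14⟩, ⟨24, 37, 37, 61⟩, ⟨24, 37, 61, 24⟩, ⟨24, 61, 37, 24⟩, ⟨24, 61, 61, 37⟩, ⟨25, 14, 14, 23⟩, ⟨25, 14, 23, 25⟩, ⟨25, 23, 14, 25⟩, ⟨25, 23, 23, 14⟩, ⟨26, 44, 44, 54⟩, ⟨26, 44, 54, 26⟩, ⟨26, 54, 44, 26⟩, ⟨26, 54, 54, 44⟩, ⟨28,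 34, 34, 62⟩, ⟨28, 34, 62, 28⟩, ⟨28, 62, 34, 28⟩, ⟨28, 62, 62, 34⟩, ⟨31, 43, 43, 52⟩, ⟨31, 43, 52, 31⟩, ⟨31, 52, 43, 31⟩, ⟨31, 52, 52, 43⟩, ⟨33, 15, 15, 46⟩, ⟨33, 15, 46, 33⟩, ⟨33, 46, 15, 33⟩, ⟨33, 46, 46, 15⟩, ⟨34, 28, 28, 62⟩, ⟨34, 28, 62, 34⟩, ⟨34, 62, 28, 34⟩, ⟨34, 62, 62, 28⟩, ⟨35, 11, 11, 40⟩, ⟨35, 11, 40, 35⟩, ⟨35, 40, 11, 35⟩, ⟨35, 40, 40, 11⟩, ⟨37, 24, 24, 61⟩, ⟨37, 24, 61, 37⟩, ⟨37, 61, 24, 37⟩, ⟨37, 61, 61, 24⟩, ⟨39, 22, 22, 49⟩, ⟨39, 22, 49, 39⟩, ⟨39, 49, 22, 39⟩, ⟨39, 49, 49, 22⟩, ⟨40, 11, 11, 35⟩, ⟨40, 11, 35, 40⟩, ⟨40, 35, 11, 40⟩, ⟨40, 35, 35, 11⟩, ⟨43, 31, 31, 52⟩, ⟨43, 31, 52, 43⟩, ⟨43, 52, 31, 43⟩, ⟨43, 52, 52, 31⟩, ⟨44, 26, 26, 54⟩, ⟨44, 26, 54, 44⟩, ⟨44, 54, 26, 44⟩, ⟨44, 54, 54, 26⟩, ⟨45, 20, 20, 57⟩, ⟨45, 20, 57, 45⟩, ⟨45, 57, 20, 45⟩, ⟨45, 57, 57, 20⟩, ⟨46, 15, 15, 33⟩, ⟨46, 15, 33, 46⟩, ⟨46, 33, 15, 46⟩, ⟨46, 33, 33, 15⟩, ⟨49, 22, 22, 39⟩, ⟨49, 22, 39,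 49⟩, ⟨49, 39, 22, 49⟩, ⟨49, 39, 39, 22⟩, ⟨51, 6, 6, 53⟩, ⟨51, 6, 53, 51⟩, ⟨51, 53, 6, 51⟩, ⟨51, 53, 53, 6⟩, ⟨52, 31, 31, 43⟩, ⟨52, 31, 43, 52⟩, ⟨52, 43, 31, 52⟩, ⟨52, 43, 43, 31⟩, ⟨53, 6, 6, 51⟩, ⟨53, 6, 51, 53⟩, ⟨53, 51, 6, 53⟩, ⟨53, 51, 51, 6⟩, ⟨54, 26, 26, 44⟩, ⟨54, 26, 44, 54⟩, ⟨54, 44, 26, 54⟩, ⟨54, 44, 44, 26⟩, ⟨57, 20, 20, 45⟩, ⟨57, 20, 45, 57⟩, ⟨57, 45, 20, 57⟩, ⟨57, 45, 45, 20⟩, ⟨61, 24, 24, 37⟩, ⟨61, 24, 37, 61⟩, ⟨61, 37, 24, 61⟩, ⟨61, 37, 37, 24⟩, ⟨62, 28, 28, 34⟩, ⟨62, 28, 34, 62⟩, ⟨62, 34, 28, 62⟩, ⟨62, 34, 34, 28⟩]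

/-- an upper bound for the subgroup attached to an element of `L7` -/
def inE : L7 → T4 → Bool
  | .bot, t => allM 3 t
  | .x, t => allM 864691128455135235 t
  | .r, t => allM 62963715 t
  | .q, t => inL t E18
  | .p, t => inL t E42
  | .s, t => inL t E126
  | .top, _ => true

theorem H_le_subG (m : Nat) (h : closedM m = true) : H ≤ subG m h := by
  intro g hg
  have aux : ∀ a : Nat, a < 64 → inM 3 a = true → inM m a = true := by
    intro a ha h3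
    have := inM3_lt a ha h3
    interval_cases a
    · exact closed_zero h
    · exact closed_one h
  have hg' : allM 3 (tup g) = true := hg
  simp only [allM, Bool.and_eq_true] at hg'
  change allM m (tup g) = true
  simp only [allM, Bool.and_eq_true]
  exact ⟨aux _ g.a.lt hg'.1, aux _ g.b.lt hg'.2.1, aux _ g.c.lt hg'.2.2.1, aux _ g.d.lt hg'.2.2.2⟩

theorem KK_bound_sub (m : Nat) (h : closedM m = true) (y : L7) (hy : allM m (nT (rt y)) = true)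
    (g : G) (hg : g ∈ KK y) : allM m (tup g) = true := by
  have hle : KK y ≤ subG m h := by
    refine (Subgroup.closure_le _).2 (Set.union_subset (H_le_subG m h) ?_)
    rw [Set.singleton_subset_iff]
    change allM m (tup (nodeG (rt y))) = true
    rw [tup_nodeG (rt_lt y)]
    exact hy
  exact hle hg

theorem KK_bound (y : L7) (g : G) (hg : g ∈ KK y) : inE y (tup g) = true := by
  cases y
  · exact KK_bound_sub 3 closedM2 .bot (by decide +kernel) g hg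
  · refine closure_list E42 _ ?_ g hg
    rw [tup_nodeG (rt_lt _)]
    decide +kernel
  · refine closure_list E18 _ ?_ g hg
    rw [tup_nodeG (rt_lt _)]
    decide +kernel
  · exact KK_bound_sub _ closedM8 .r (by decide +kernel) g hg
  · refine closure_list E126 _ ?_ g hg
    rw [tup_nodeG (rt_lt _)]
    decide +kernel
  · exact KK_bound_sub _ closedM4 .x (by decide +kernel) g hg
  · rfl

theorem table : ∀ x y : L7, x ≤ y ∨ inE y (nT (rt x)) = false := by decide +kernel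

theorem top_all {K : Subgroup G} (hK : H ≤ K) (h : nodeG (rt .top) ∈ K) (x : L7) :
    nodeG (rt x) ∈ K := by
  cases x
  · exact bot_mem hK
  · exact f_sp hK (f_ts hK h)
  · exact f_sq hK (f_ts hK h)
  · exact f_tr hK h
  · exact f_ts hK h
  · exact f_tx hK h
  · exact h

theorem root_mem_KK_iff (x y : L7) : nodeG (rt x) ∈ KK y ↔ x ≤ y := by
  constructor
  · intro h
    rcases table x y with h1 | h1
    · exact h1
    · have h2 := KK_bound y _ h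
      rw [tup_nodeG (rt_lt x), h1] at h2
      exact absurd h2 (by decide)
  · intro h
    have hK := H_le_KK y
    have hn := node_mem_KK y
    rcases (h : L7.le x y) with rfl | rfl | rfl | ⟨rfl, rfl⟩ | ⟨rfl, rfl⟩ | ⟨rfl, rfl⟩
    · exact bot_mem hK
    · exact top_all hK hn x
    · exact hn
    · exact f_rq hK hn
    · exact f_sq hK hn
    · exact f_sp hK hn

/-- the boolean model of a closed set of elements of `L7` -/
def fB (cb cp cq cr cs cx ct : Bool) : L7 → Bool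
  | .bot => cb
  | .p => cp
  | .q => cq
  | .r => cr
  | .s => cs
  | .x => cx
  | .top => ct

/-- the closure conditions on a set of elements of `L7` -/
def closedB (cb cp cq cr cs cx ct : Bool) : Bool :=
  cb && (!cs || cq) && (!cs || cp) && (!cr || cq) && (!(cq && cp) || cs) && (!(cx && cq) || ct) &&
    (!(cx && cp) || ct) && (!(cr && cp) || ct) && (!ct || cr) && (!ct || cs) && (!ct || cx)

theorem closed_bool' : ∀ cb cp cq cr cs cx ct : Bool, closedB cb cp cq cr cs cx ct = true →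
    ∃ y : L7, ∀ x : L7, fB cb cp cq cr cs cx ct x = true ↔ x ≤ y := by
  decide +kernel

theorem imp1 {a b : Bool} (h : a = true → b = true) : (!a || b) = true := by
  cases a <;> cases b <;> simp_all

theorem imp2 {a b c : Bool} (h : a = true → b = true → c = true) : (!(a && b) || c) = true := by
  cases a <;> cases b <;> cases c <;> simp_all

theorem closed_bool : ∀ cb cp cq cr cs cx ct : Bool, cb = true → (cs = true → cq = true) →
    (cs = true → cp = true) → (cr = true → cq = true) → (cq = true → cp = true → cs = true) →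
    (cx = true → cq = true → ct = true) → (cx = true → cp = true → ct = true) →
    (cr = true → cp = true → ct = true) → (ct = true → cr = true) → (ct = true → cs = true) →
    (ct = true → cx = true) →
    ∃ y : L7, ∀ x : L7, fB cb cp cq cr cs cx ct x = true ↔ x ≤ y := by
  intro cb cp cq cr cs cx ct h1 h2 h3 h4 h5 h6 h7 h8 h9 h10 h11
  exact closed_bool' _ _ _ _ _ _ _ (by
    simp only [closedB, h1, imp1 h2, imp1 h3, imp1 h4, imp2 h5, imp2 h6, imp2 h7, imp2 h8,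
      imp1 h9, imp1 h10, imp1 h11, Bool.and_self])

open Classical in
theorem closed_set (K : Subgroup G) (hK : H ≤ K) : ∃ y, ∀ x, nodeG (rt x) ∈ K ↔ x ≤ y := by
  obtain ⟨y, hy⟩ := closed_bool (decide (nodeG (rt .bot) ∈ K)) (decide (nodeG (rt .p) ∈ K))
    (decide (nodeG (rt .q) ∈ K)) (decide (nodeG (rt .r) ∈ K)) (decide (nodeG (rt .s) ∈ K))
    (decide (nodeG (rt .x) ∈ K)) (decide (nodeG (rt .top) ∈ K))
    (decide_eq_true (bot_mem hK))
    (fun h => decide_eq_true (f_sq hK (of_decide_eq_true h)))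
    (fun h => decide_eq_true (f_sp hK (of_decide_eq_true h)))
    (fun h => decide_eq_true (f_rq hK (of_decide_eq_true h)))
    (fun h h' => decide_eq_true (f_qps hK (of_decide_eq_true h) (of_decide_eq_true h')))
    (fun h h' => decide_eq_true (f_xqt hK (of_decide_eq_true h) (of_decide_eq_true h')))
    (fun h h' => decide_eq_true (f_xpt hK (of_decide_eq_true h) (of_decide_eq_true h')))
    (fun h h' => decide_eq_true (f_rpt hK (of_decide_eq_true h) (of_decide_eq_true h')))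
    (fun h => decide_eq_true (f_tr hK (of_decide_eq_true h)))
    (fun h => decide_eq_true (f_ts hK (of_decide_eq_true h)))
    (fun h => decide_eq_true (f_tx hK (of_decide_eq_true h)))
  refine ⟨y, fun x => ?_⟩
  rw [← hy x]
  cases x <;> simp [fB]

/-- The main theorem: `L7` is an interval in the subgroup lattice of `SL(2, 64)`. -/
theorem isGroupInterval_L7 : IsGroupInterval L7 := by
  let f : L7 → Set.Ici H := fun y => ⟨KK y, H_le_KK y⟩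
  have hle : ∀ x y, f x ≤ f y ↔ x ≤ y := by
    intro x y
    constructor
    · intro h
      exact (root_mem_KK_iff x y).1 (h (node_mem_KK x))
    · intro h
      exact (Subgroup.closure_le _).2 (Set.union_subset (H_le_KK y)
        (Set.singleton_subset_iff.2 ((root_mem_KK_iff x y).2 h)))
  have hsurj : Function.Surjective f := by
    rintro ⟨K, hK⟩
    obtain ⟨y, hy⟩ := closed_set K hK
    refine ⟨y, Subtype.ext ?_⟩
    refine ext_of_roots (H_le_KK y) hK (fun z => ?_)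
    rw [root_mem_KK_iff, hy z]
  exact ⟨G, inferInstance, inferInstance, H,
    ⟨RelIso.ofSurjective (OrderEmbedding.ofMapLEIff f hle) hsurj⟩⟩

/-- `L7` is representable. -/
theorem representable_L7 : Representable L7 := representable_of_interval isGroupInterval_L7

end Vale.Agent.Lib.P183
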