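import Mathlib
import Vale.Agent.Lib.P183.F64

/-!
The group `SL(2, 64)`, with a raw computational model on quadruples of natural numbers.
-/
namespace Vale.Agent.Lib.P183

open F64

/-- `SL(2, F64)`: matrices `[[a, b], [c, d]]` with determinant one (in characteristic two, the
determinant is `a * d + b * c`). -/
@[ext] structure G where
  a : F64
  b : F64
  c : F64
  d : F64
  det : a * d + b * c = 1

namespace G

instance : Mul G where
  mul g h := ⟨g.a * h.a + g.b * h.c, g.a * h.b + g.b * h.d, g.c * h.a + g.d * h.c,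
    g.c * h.b + g.d * h.d, by
      have h1 := g.det
      have h2 := h.det
      linear_combination (h.a * h.d + h.b * h.c) * h1 + h2 +
        (g.a * g.c * h.a * h.b + g.b * g.d * h.c * h.d) * two_eq⟩

instance : One G := ⟨⟨1, 0, 0, 1, by ring⟩⟩

instance : Inv G where
  inv g := ⟨g.d, g.b, g.c, g.a, by
    have h1 := g.det
    linear_combination h1⟩

theorem mul_a (g h : G) : (g * h).a = g.a * h.a + g.b * h.c := rfl
theorem mul_b (g h : G) : (g * h).b = g.a * h.b + g.b * h.d := rfl
theorem mul_c (g h : G) : (g * h).c = g.c * h.a + g.d * h.c := rfl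
theorem mul_d (g h : G) : (g * h).d = g.c * h.b + g.d * h.d := rfl

instance : Group G :=
  Group.ofLeftAxioms
    (by
      intro x y z
      ext1
      · simp only [mul_a, mul_b, mul_c, mul_d]; ring
      · simp only [mul_a, mul_b, mul_c, mul_d]; ring
      · simp only [mul_a, mul_b, mul_c, mul_d]; ring
      · simp only [mul_a, mul_b, mul_c, mul_d]; ring)
    (by
      intro x
      ext1
      · change 1 * x.a + 0 * x.c = x.a; ring
      · change 1 * x.b + 0 * x.d = x.b; ring
      · change 0 * x.a + 1 * x.c = x.c; ring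
      · change 0 * x.b + 1 * x.d = x.d; ring)
    (by
      intro x
      have h := x.det
      ext1
      · change x.d * x.a + x.b * x.c = 1; linear_combination h
      · change x.d * x.b + x.b * x.d = 0; linear_combination (x.b * x.d) * two_eq
      · change x.c * x.a + x.a * x.c = 0; linear_combination (x.a * x.c) * two_eq
      · change x.c * x.b + x.a * x.d = 1; linear_combination h)

theorem ext_vals {g h : G} (h1 : g.a.val = h.a.val) (h2 : g.b.val = h.b.val)
    (h3 : g.c.val = h.c.val) (h4 : g.d.val = h.d.val) : g = h :=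
  G.ext (F64.ext' h1) (F64.ext' h2) (F64.ext' h3) (F64.ext' h4)

instance : Finite G :=
  Finite.of_injective (fun g : G => (g.a, g.b, g.c, g.d)) (by
    intro g h e
    simp only [Prod.mk.injEq] at e
    exact G.ext e.1 e.2.1 e.2.2.1 e.2.2.2)

/-- an integer code of a group element, with values in the interval from `64` to `2 ^ 18`. -/
def code (g : G) : Nat :=
  if g.a.val = 0 then 64 * g.b.val + g.d.val else 4096 * g.a.val + 64 * g.b.val + g.c.val

theorem b_ne_zero (g : G) (h1 : g.a = 0) : g.b ≠ 0 := by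
  intro h0
  have det := g.det
  rw [h1, h0] at det
  have : (0 : F64) = 1 := by simpa using det
  exact absurd (congrArg F64.val this) (by decide)

theorem code_inj : Function.Injective code := by
  intro g h e
  unfold code at e
  have ga := g.a.lt; have gb := g.b.lt; have gc := g.c.lt; have gd := g.d.lt
  have ha := h.a.lt; have hb := h.b.lt; have hc := h.c.lt; have hd := h.d.lt
  have det1 := g.det
  have det2 := h.det
  by_cases h1 : g.a.val = 0 <;> by_cases h2 : h.a.val = 0
  · rw [if_pos h1, if_pos h2] at e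
    have e1 : g.b.val = h.b.val := by omega
    have e2 : g.d.val = h.d.val := by omega
    have e1' := F64.ext' e1
    have e2' := F64.ext' e2
    have h1' : g.a = 0 := F64.ext' h1
    have h2' : h.a = 0 := F64.ext' h2
    have e3 : g.c = h.c := by
      apply F64.mul_cancel h.b _ _ (b_ne_zero h h2')
      rw [h1', zero_mul, zero_add, e1'] at det1
      rw [h2', zero_mul, zero_add] at det2
      rw [det1, det2]
    exact G.ext (h1'.trans h2'.symm) e1' e3 e2'
  · exfalso
    rw [if_pos h1, if_neg h2] at e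
    omega
  · exfalso
    rw [if_neg h1, if_pos h2] at e
    omega
  · rw [if_neg h1, if_neg h2] at e
    have e0 : g.a.val = h.a.val := by omega
    have e1 : g.b.val = h.b.val := by omega
    have e2 : g.c.val = h.c.val := by omega
    have e0' := F64.ext' e0
    have e1' := F64.ext' e1
    have e2' := F64.ext' e2
    refine G.ext e0' e1' e2' ?_
    have h2' : h.a ≠ 0 := fun h0 => h2 (congrArg F64.val h0)
    apply F64.mul_cancel h.a _ _ h2'
    have d1 : g.a * g.d = 1 + g.b * g.c := by
      linear_combination det1 - (g.b * g.c) * two_eq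
    have d2 : h.a * h.d = 1 + h.b * h.c := by
      linear_combination det2 - (h.b * h.c) * two_eq
    rw [d2, ← e0', d1, e1', e2']

theorem code_mem (g : G) : code g ∈ Finset.Ico 64 262144 := by
  unfold code
  have ga := g.a.lt; have gb := g.b.lt; have gc := g.c.lt; have gd := g.d.lt
  rw [Finset.mem_Ico]
  by_cases h1 : g.a.val = 0
  · rw [if_pos h1]
    have hb0 : g.b.val ≠ 0 := fun h0 => b_ne_zero g (F64.ext' h1) (F64.ext' h0)
    omega
  · rw [if_neg h1]
    omega

theorem card_le [Fintype G] : Fintype.card G ≤ 262080 := by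
  classical
  have := Finset.card_le_card_of_injOn (s := Finset.univ) (t := Finset.Ico 64 262144) code
    (fun g _ => code_mem g) (fun x _ y _ h => code_inj h)
  simpa using this

end G

/-- Raw quadruples of natural numbers, for computation. -/
structure T4 where
  a : Nat
  b : Nat
  c : Nat
  d : Nat

/-- the quadruple of entries -/
def tup (g : G) : T4 := ⟨g.a.val, g.b.val, g.c.val, g.d.val⟩

theorem tup_inj {g h : G} (e : tup g = tup h) : g = h := by
  have h1 : g.a.val = h.a.val := congrArg T4.a e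
  have h2 : g.b.val = h.b.val := congrArg T4.b e
  have h3 : g.c.val = h.c.val := congrArg T4.c e
  have h4 : g.d.val = h.d.val := congrArg T4.d e
  exact G.ext_vals h1 h2 h3 h4

/-- matrix product on raw quadruples -/
def mulT (t u : T4) : T4 :=
  ⟨Nat.xor (mulN t.a u.a) (mulN t.b u.c), Nat.xor (mulN t.a u.b) (mulN t.b u.d),
    Nat.xor (mulN t.c u.a) (mulN t.d u.c), Nat.xor (mulN t.c u.b) (mulN t.d u.d)⟩

theorem tup_mul (g h : G) : tup (g * h) = mulT (tup g) (tup h) := rfl

/-- boolean equality of raw quadruples -/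
def eqT (t u : T4) : Bool :=
  and (Nat.beq t.a u.a) (and (Nat.beq t.b u.b) (and (Nat.beq t.c u.c) (Nat.beq t.d u.d)))

theorem eqT_spec {t u : T4} (h : eqT t u = true) : t = u := by
  simp only [eqT, Bool.and_eq_true, Nat.beq_eq] at h
  cases t; cases u
  simp_all

/-- right action of the six elements of `SL(2, 2)` on raw quadruples (xor only) -/
def rAct (j : Nat) (t : T4) : T4 :=
  match j with
  | 0 => t
  | 1 => ⟨t.b, t.a, t.d, t.c⟩
  | 2 => ⟨t.a, Nat.xor t.a t.b, t.c, Nat.xor t.c t.d⟩
  | 3 => ⟨Nat.xor t.a t.b, t.b, Nat.xor t.c t.d, t.d⟩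
  | 4 => ⟨t.b, Nat.xor t.a t.b, t.d, Nat.xor t.c t.d⟩
  | 5 => ⟨Nat.xor t.a t.b, t.a, Nat.xor t.c t.d, t.c⟩
  | _ => t

/-- left action of the six elements of `SL(2, 2)` on raw quadruples (xor only) -/
def lAct (j : Nat) (t : T4) : T4 :=
  match j with
  | 0 => t
  | 1 => ⟨t.c, t.d, t.a, t.b⟩
  | 2 => ⟨Nat.xor t.a t.c, Nat.xor t.b t.d, t.c, t.d⟩
  | 3 => ⟨t.a, t.b, Nat.xor t.a t.c, Nat.xor t.b t.d⟩
  | 4 => ⟨t.c, t.d, Nat.xor t.a t.c, Nat.xor t.b t.d⟩
  | 5 => ⟨Nat.xor t.a t.c, Nat.xor t.b t.d, t.a, t.b⟩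
  | _ => t

/-- an element from a raw quadruple, or the identity for invalid data -/
def mkG (t : T4) : G :=
  if h : t.a < 64 ∧ t.b < 64 ∧ t.c < 64 ∧ t.d < 64 ∧ Nat.xor (mulN t.a t.d) (mulN t.b t.c) = 1 then
    ⟨⟨t.a, h.1⟩, ⟨t.b, h.2.1⟩, ⟨t.c, h.2.2.1⟩, ⟨t.d, h.2.2.2.1⟩, F64.ext' h.2.2.2.2⟩
  else 1

/-- validity of a raw quadruple -/
def validT (t : T4) : Bool :=
  and (Nat.blt t.a 64) (and (Nat.blt t.b 64) (and (Nat.blt t.c 64) (and (Nat.blt t.d 64)
    (Nat.beq (Nat.xor (mulN t.a t.d) (mulN t.b t.c)) 1))))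

theorem tup_mkG {t : T4} (h : validT t = true) : tup (mkG t) = t := by
  simp only [validT, Bool.and_eq_true, Nat.beq_eq, Nat.blt_eq] at h
  unfold mkG
  rw [dif_pos ⟨h.1, h.2.1, h.2.2.1, h.2.2.2.1, h.2.2.2.2⟩]
  rfl

/-- the six elements of `SL(2, 2)` -/
def hEl (j : Nat) : G :=
  match j with
  | 0 => 1
  | 1 => ⟨0, 1, 1, 0, by ring⟩
  | 2 => ⟨1, 1, 0, 1, by ring⟩
  | 3 => ⟨1, 0, 1, 1, by ring⟩
  | 4 => ⟨0, 1, 1, 1, by ring⟩
  | 5 => ⟨1, 1, 1, 0, by ring⟩
  | _ => 1

end Vale.Agent.Lib.P183
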