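import Vale.Agent.Lib.P183.CertSound

/-!
Reduction of the representability of all lattices with at most seven elements to a finite table:
a lattice with `n` elements has a bijection to `Fin n` that is monotone; the order is then coded
by a number and a table says for each number which lattice in a list it is isomorphic to.
-/
namespace Vale.Agent.Lib.P183

/-- the order on `0, …, n - 1` coded by the bits of `mask`: bit `x * n + y` tells whether `x ≤ y` -/
def ordM (n mask x y : Nat) : Bool := Nat.beq (bits mask (Nat.add (Nat.mul x n) y) 1) 1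

/-- every partial order isomorphic to the order coded by `mask` is representable -/
def Good (n mask : Nat) : Prop :=
  ∀ (L : Type) [PartialOrder L] (e : L ≃ Fin n),
    (∀ x y, x ≤ y ↔ ordM n mask (e x) (e y) = true) → Representable L

theorem good_of_cert {c : Cert} (h : c.chkAll = true) : Good c.n c.ord :=
  fun _ _ e he => Cert.sound h e he

/-- a bounded universal check -/
def allN (n : Nat) (p : Nat → Bool) : Bool :=
  Nat.rec true (fun i ih => and ih (p i)) n

/-- a bounded existential check -/
def anyN (n : Nat) (p : Nat → Bool) : Bool :=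
  Nat.rec false (fun i ih => or ih (p i)) n

theorem allN_iff (n : Nat) (p : Nat → Bool) : allN n p = true ↔ ∀ i, i < n → p i = true := by
  induction n with
  | zero => simp [allN]
  | succ n ih =>
    have h : allN (n + 1) p = and (allN n p) (p n) := rfl
    rw [h, Bool.and_eq_true, ih]
    constructor
    · rintro ⟨h1, h2⟩ i hi
      rcases Nat.lt_succ_iff_lt_or_eq.1 hi with h3 | h3
      · exact h1 i h3
      · rw [h3]; exact h2
    · intro h1
      exact ⟨fun i hi => h1 i (by omega), h1 n (by omega)⟩

theorem anyN_iff (n : Nat) (p : Nat → Bool) : anyN n p = true ↔ ∃ i, i < n ∧ p i = true := by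
  induction n with
  | zero => simp [anyN]
  | succ n ih =>
    have h : anyN (n + 1) p = or (anyN n p) (p n) := rfl
    rw [h, Bool.or_eq_true, ih]
    constructor
    · rintro (⟨i, hi, h2⟩ | h2)
      · exact ⟨i, by omega, h2⟩
      · exact ⟨n, by omega, h2⟩
    · rintro ⟨i, hi, h2⟩
      rcases Nat.lt_succ_iff_lt_or_eq.1 hi with h3 | h3
      · exact Or.inl ⟨i, h3, h2⟩
      · rw [h3] at h2; exact Or.inr h2

theorem beq_false {a b : Nat} (h : a ≠ b) : Nat.beq a b = false := by
  rw [← Bool.not_eq_true, Nat.beq_eq]; exact h

theorem blt_false {a b : Nat} (h : ¬ a < b) : Nat.blt a b = false := by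
  rw [← Bool.not_eq_true, Nat.blt_eq]; exact h

/-- equality of booleans, as a boolean -/
def eqB (a b : Bool) : Bool := cond a b (not b)

theorem eqB_iff (a b : Bool) : eqB a b = true ↔ a = b := by
  cases a <;> cases b <;> decide

/-- the position of the pair `1 ≤ i < j ≤ n - 2` in the code of an order -/
def idx (i j : Nat) : Nat := (j - 1) * (j - 2) / 2 + (i - 1)

/-- number of bits in the code of an order on `n` elements -/
def numBits (n : Nat) : Nat := (n - 2) * (n - 3) / 2

/-- the relation coded by `B` -/
def rB (n B i j : Nat) : Bool :=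
  cond (Nat.beq i j) true
    (cond (Nat.blt j i) false
      (cond (or (Nat.beq i 0) (Nat.beq j (n - 1))) true
        (Nat.beq (bits B (idx i j) 1) 1)))

/-- the check that `rB` agrees with the order `mask` along the map `pc` -/
def chkValid (n : Nat) (masks : List Nat) (B t pc : Nat) : Bool :=
  let pi := fun i => bits pc (3 * i) 7
  let mask := masks.getD t 0
  and (Nat.blt t masks.length)
    (and (allN n (fun i => Nat.blt (pi i) n))
      (and (allN n (fun i => allN n (fun j => or (Nat.beq i j) (not (Nat.beq (pi i) (pi j))))))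
        (allN n (fun i => allN n (fun j =>
          eqB (rB n B i j) (ordM n mask (pi i) (pi j)))))))

/-- a violation of transitivity -/
def chkTrans (n B i j k : Nat) : Bool :=
  and (and (Nat.blt i n) (and (Nat.blt j n) (Nat.blt k n)))
    (and (rB n B i j) (and (rB n B j k) (not (rB n B i k))))

/-- two elements without a meet -/
def chkMeet (n B i j : Nat) : Bool :=
  and (and (Nat.blt i n) (Nat.blt j n))
    (not (anyN n (fun m => and (and (rB n B m i) (rB n B m j))
      (allN n (fun z => or (not (and (rB n B z i) (rB n B z j))) (rB n B z m))))))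

/-- two elements without a join -/
def chkJoin (n B i j : Nat) : Bool :=
  and (and (Nat.blt i n) (Nat.blt j n))
    (not (anyN n (fun m => and (and (rB n B i m) (rB n B j m))
      (allN n (fun z => or (not (and (rB n B i z) (rB n B j z))) (rB n B m z))))))

/-- the check of an entry of the table -/
noncomputable def entryOk (n : Nat) (tbl : NTree) (masks : List Nat) (B : Nat) : Bool :=
  let E := NTree.get tbl B
  let kind := bits E 0 3
  cond (Nat.beq kind 0) (chkValid n masks B (bits E 2 127) (bits E 9 2097151))
    (cond (Nat.beq kind 1) (chkTrans n B (bits E 2 7) (bits E 5 7) (bits E 8 7))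
      (cond (Nat.beq kind 2) (chkMeet n B (bits E 2 7) (bits E 5 7))
        (chkJoin n B (bits E 2 7) (bits E 5 7))))

/-- the check of a table -/
noncomputable def chkTbl (n : Nat) (tbl : NTree) (masks : List Nat) : Bool :=
  allR (entryOk n tbl masks) (numBits n) 0

/-- existence of a number with given low bits -/
theorem exists_bits (m : Nat) (f : Nat → Bool) : ∃ B, B < 2 ^ m ∧ ∀ k, k < m → B.testBit k = f k := by
  induction m generalizing f with
  | zero => exact ⟨0, by norm_num, fun k hk => absurd hk (by omega)⟩
  | succ m ih =>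
    obtain ⟨B, hB, h⟩ := ih (fun k => f (k + 1))
    refine ⟨Nat.bit (f 0) B, ?_, ?_⟩
    · rw [Nat.bit_lt_two_pow_succ_iff]; exact hB
    · intro k hk
      cases k with
      | zero => simp
      | succ k =>
        rw [Nat.testBit_bit_succ]
        exact h k (by omega)

theorem idx_inj : ∀ i j i' j' : Fin 7, 1 ≤ i.val → i.val < j.val → 1 ≤ i'.val → i'.val < j'.val →
    idx i.val j.val = idx i'.val j'.val → i = i' ∧ j = j' := by decide

theorem idx_lt : ∀ n i j : Fin 8, 1 ≤ i.val → i.val < j.val → j.val + 2 ≤ n.val →
    idx i.val j.val < numBits n.val := by decide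

/-- a monotone bijection to `Fin n` -/
theorem exists_mono_equiv (L : Type) [PartialOrder L] [Finite L] (n : Nat) (hn : Nat.card L = n) :
    ∃ e : L ≃ Fin n, ∀ x y, x ≤ y → e x ≤ e y := by
  classical
  letI : Fintype L := Fintype.ofFinite L
  letI : Fintype (LinearExtension L) := inferInstanceAs (Fintype L)
  have hc : Fintype.card (LinearExtension L) = n := by
    rw [← hn, Nat.card_eq_fintype_card]
    rfl
  let i : Fin n ≃o LinearExtension L := Fintype.orderIsoFinOfCardEq (LinearExtension L) hc
  let e' : L ≃ LinearExtension L := Equiv.refl L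
  refine ⟨e'.trans i.symm.toEquiv, fun x y hxy => ?_⟩
  have h1 : toLinearExtension (α := L) x ≤ toLinearExtension (α := L) y :=
    (toLinearExtension (α := L)).monotone hxy
  exact i.symm.monotone h1

section main

variable {L : Type} [Lattice L] {n : Nat} (e : L ≃ Fin n) (he : ∀ x y, x ≤ y → e x ≤ e y)

include he

theorem le_of_symm_le {i j : Fin n} (h : e.symm i ≤ e.symm j) : i ≤ j := by
  have := he _ _ h
  simpa using this

theorem first_le (hn : 0 < n) (y : L) : e.symm ⟨0, hn⟩ ≤ y := by
  set m := e.symm ⟨0, hn⟩ with hm
  have h1 : e (m ⊓ y) ≤ e m := he _ _ inf_le_left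
  have h2 : e m = ⟨0, hn⟩ := by simp [hm]
  have h3 : e (m ⊓ y) = e m := by
    apply Fin.ext
    have : (e (m ⊓ y)).val ≤ (e m).val := h1
    rw [h2] at this ⊢
    simp only at this ⊢
    omega
  have h4 : m ⊓ y = m := e.injective h3
  exact inf_eq_left.1 h4

theorem le_last (hn : 0 < n) (y : L) : y ≤ e.symm ⟨n - 1, by omega⟩ := by
  set m := e.symm ⟨n - 1, by omega⟩ with hm
  have h1 : e m ≤ e (y ⊔ m) := he _ _ le_sup_right
  have h2 : e m = ⟨n - 1, by omega⟩ := by simp [hm]
  have h3 : e (y ⊔ m) = e m := by
    apply Fin.ext
    have h5 : (e m).val ≤ (e (y ⊔ m)).val := h1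
    have h6 := (e (y ⊔ m)).isLt
    rw [h2] at h5 ⊢
    simp only at h5 ⊢
    omega
  have h4 : y ⊔ m = m := e.injective h3
  exact sup_eq_right.1 h4

end main

/-- the order of `L` transported to natural numbers -/
noncomputable def relN {L : Type} [PartialOrder L] {n : Nat} (e : L ≃ Fin n) (i j : Nat) : Bool := by
  classical
  exact decide (∃ (hi : i < n) (hj : j < n), e.symm ⟨i, hi⟩ ≤ e.symm ⟨j, hj⟩)

theorem relN_iff {L : Type} [PartialOrder L] {n : Nat} (e : L ≃ Fin n) {i j : Nat} (hi : i < n)
    (hj : j < n) : relN e i j = true ↔ e.symm ⟨i, hi⟩ ≤ e.symm ⟨j, hj⟩ := by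
  classical
  unfold relN
  simp only [decide_eq_true_eq]
  constructor
  · rintro ⟨_, _, h⟩; exact h
  · intro h; exact ⟨hi, hj, h⟩

/-- the order of a lattice is coded by a number -/
theorem exists_code {L : Type} [Lattice L] {n : Nat} (hn0 : 0 < n) (hn : n ≤ 7) (e : L ≃ Fin n)
    (he : ∀ x y, x ≤ y → e x ≤ e y) :
    ∃ B, B < 2 ^ numBits n ∧ ∀ i j, i < n → j < n → rB n B i j = relN e i j := by
  classical
  let f : Nat → Bool := fun k => decide (∃ i j, 1 ≤ i ∧ i < j ∧ j + 2 ≤ n ∧ idx i j = k ∧
    relN e i j = true)
  obtain ⟨B, hB, hbits⟩ := exists_bits (numBits n) f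
  refine ⟨B, hB, fun i j hi hj => ?_⟩
  unfold rB
  by_cases hij : i = j
  · subst hij
    have h : relN e i i = true := (relN_iff e hi hi).2 le_rfl
    simp [h]
  have hb : Nat.beq i j = false := beq_false hij
  rw [hb]
  by_cases hji : j < i
  · have hlt : Nat.blt j i = true := by simpa [Nat.blt_eq] using hji
    rw [cond_false, hlt, cond_true]
    symm
    rw [← Bool.not_eq_true, relN_iff e hi hj]
    intro hle
    have := le_of_symm_le e he hle
    have h2 : i ≤ j := this
    omega
  · have hlt : Nat.blt j i = false := blt_false hji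
    rw [cond_false, hlt, cond_false]
    by_cases h0 : i = 0
    · subst h0
      have : relN e 0 j = true := (relN_iff e hi hj).2 (first_le e he hn0 _)
      simp [this]
    by_cases h1 : j = n - 1
    · subst h1
      have h2 : relN e i (n - 1) = true := by
        rw [relN_iff e hi hj]
        exact le_last e he hn0 _
      simp [h2]
    have hc : (or (Nat.beq i 0) (Nat.beq j (n - 1))) = false := by
      rw [beq_false h0, beq_false h1]; rfl
    rw [hc, cond_false]
    have hlt2 : idx i j < numBits n :=
      idx_lt ⟨n, by omega⟩ ⟨i, by omega⟩ ⟨j, by omega⟩ (by simp; omega) (by simp; omega)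
        (by simp; omega)
    have hf := hbits _ hlt2
    have key : (Nat.beq (bits B (idx i j) 1) 1) = B.testBit (idx i j) := by
      rw [Bool.eq_iff_iff, Nat.beq_eq, bits_one_iff]
    rw [key, hf]
    rw [Bool.eq_iff_iff]
    simp only [f, decide_eq_true_eq]
    constructor
    · rintro ⟨i', j', h1', h2', h3', h4', h5'⟩
      have hi' : i' < 7 := by omega
      have hj' : j' < 7 := by omega
      have := idx_inj ⟨i', hi'⟩ ⟨j', hj'⟩ ⟨i, by omega⟩ ⟨j, by omega⟩ (by simpa using h1')
        (by simpa using h2') (by simp; omega) (by simp; omega) (by simpa using h4')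
      obtain ⟨h6, h7⟩ := this
      have h6' : i' = i := by simpa using h6
      have h7' : j' = j := by simpa using h7
      rw [h6', h7'] at h5'
      exact h5'
    · intro h
      exact ⟨i, j, by omega, by omega, by omega, rfl, h⟩

/-- a table gives representability of all lattices with `n` elements -/
theorem representable_of_tbl {n : Nat} {tbl : NTree} {masks : List Nat} (hn0 : 0 < n) (hn : n ≤ 7)
    (hT : chkTbl n tbl masks = true) (hG : ∀ mask ∈ masks, Good n mask)
    (L : Type) [Lattice L] [Finite L] (hc : Nat.card L = n) : Representable L := by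
  obtain ⟨e, he⟩ := exists_mono_equiv L n hc
  obtain ⟨B, hB, hR⟩ := exists_code hn0 hn e he
  have hE := allR_below _ _ hT B hB
  have hR' : ∀ i j, i < n → j < n → (rB n B i j = true ↔ (∃ (hi : i < n) (hj : j < n),
      e.symm ⟨i, hi⟩ ≤ e.symm ⟨j, hj⟩)) := by
    intro i j hi hj
    rw [hR i j hi hj, relN_iff e hi hj]
    constructor
    · intro h; exact ⟨hi, hj, h⟩
    · rintro ⟨_, _, h⟩; exact h
  have hR2 : ∀ i j (hi : i < n) (hj : j < n), rB n B i j = true ↔ e.symm ⟨i, hi⟩ ≤ e.symm ⟨j, hj⟩ := by
    intro i j hi hj
    rw [hR i j hi hj, relN_iff e hi hj]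
  unfold entryOk at hE
  simp only at hE
  by_cases k0 : bits (NTree.get tbl B) 0 3 = 0
  · rw [k0] at hE
    have hV : chkValid n masks B (bits (NTree.get tbl B) 2 127)
        (bits (NTree.get tbl B) 9 2097151) = true := hE
    generalize bits (NTree.get tbl B) 2 127 = t at hV
    generalize bits (NTree.get tbl B) 9 2097151 = pc at hV
    unfold chkValid at hV
    simp only [Bool.and_eq_true, allN_iff] at hV
    obtain ⟨ht, hp1, hp2, hm⟩ := hV
    have ht' : t < masks.length := by simpa [Nat.blt_eq] using ht
    have hmask : masks.getD t 0 ∈ masks := by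
      rw [List.getD_eq_getElem _ _ ht']
      exact List.getElem_mem ht'
    let π : Fin n → Fin n := fun i => ⟨bits pc (3 * i.val) 7, by
      have := hp1 i.val i.isLt
      simpa [Nat.blt_eq] using this⟩
    have hinj : Function.Injective π := by
      intro a b hab
      by_contra hne
      have h1 := hp2 a.val a.isLt b.val b.isLt
      have hne' : a.val ≠ b.val := fun h => hne (Fin.ext h)
      have hab' : bits pc (3 * a.val) 7 = bits pc (3 * b.val) 7 := congrArg Fin.val hab
      rw [beq_false hne', hab'] at h1
      simp [Nat.beq_refl] at h1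
    let p : Fin n ≃ Fin n := Equiv.ofBijective π (Finite.injective_iff_bijective.1 hinj)
    refine hG _ hmask L (e.trans p) (fun x y => ?_)
    have h1 := hm (e x).val (e x).isLt (e y).val (e y).isLt
    have h2 := hR2 (e x).val (e y).val (e x).isLt (e y).isLt
    have h3 : eqB (rB n B (e x).val (e y).val) (ordM n (masks.getD t 0)
        (bits pc (3 * (e x).val) 7) (bits pc (3 * (e y).val) 7)) = true := h1
    have h4 : rB n B (e x).val (e y).val = ordM n (masks.getD t 0)
        (bits pc (3 * (e x).val) 7) (bits pc (3 * (e y).val) 7) := (eqB_iff _ _).1 h3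
    have h5 : ((e.trans p) x).val = bits pc (3 * (e x).val) 7 := rfl
    have h6 : ((e.trans p) y).val = bits pc (3 * (e y).val) 7 := rfl
    rw [h5, h6, ← h4, h2]
    simp
  · exfalso
    have hk0 : Nat.beq (bits (NTree.get tbl B) 0 3) 0 = false := beq_false k0
    rw [hk0, cond_false] at hE
    by_cases k1 : bits (NTree.get tbl B) 0 3 = 1
    · rw [k1] at hE
      have hV : chkTrans n B (bits (NTree.get tbl B) 2 7) (bits (NTree.get tbl B) 5 7)
          (bits (NTree.get tbl B) 8 7) = true := hE
      unfold chkTrans at hV
      simp only [Bool.and_eq_true, Bool.not_eq_true'] at hV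
      obtain ⟨⟨hi, hj, hk⟩, h1, h2, h3⟩ := hV
      have hi' := (Nat.blt_eq ▸ hi : _ < n)
      have hj' := (Nat.blt_eq ▸ hj : _ < n)
      have hk' := (Nat.blt_eq ▸ hk : _ < n)
      have a1 := (hR2 _ _ hi' hj').1 h1
      have a2 := (hR2 _ _ hj' hk').1 h2
      have a3 := (hR2 _ _ hi' hk').2 (le_trans a1 a2)
      rw [a3] at h3
      exact Bool.noConfusion h3
    · have hk1 : Nat.beq (bits (NTree.get tbl B) 0 3) 1 = false := beq_false k1
      rw [hk1, cond_false] at hE
      by_cases k2 : bits (NTree.get tbl B) 0 3 = 2
      · rw [k2] at hE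
        have hV : chkMeet n B (bits (NTree.get tbl B) 2 7) (bits (NTree.get tbl B) 5 7) = true := hE
        unfold chkMeet at hV
        simp only [Bool.and_eq_true, Bool.not_eq_true'] at hV
        obtain ⟨⟨hi, hj⟩, h1⟩ := hV
        have hi' := (Nat.blt_eq ▸ hi : _ < n)
        have hj' := (Nat.blt_eq ▸ hj : _ < n)
        generalize bits (NTree.get tbl B) 2 7 = a at *
        generalize bits (NTree.get tbl B) 5 7 = b at *
        have hex : anyN n (fun m => and (and (rB n B m a) (rB n B m b))
            (allN n (fun z => or (not (and (rB n B z a) (rB n B z b))) (rB n B z m)))) = true := by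
          rw [anyN_iff]
          let m := e (e.symm ⟨a, hi'⟩ ⊓ e.symm ⟨b, hj'⟩)
          have hm1 : e.symm m = e.symm ⟨a, hi'⟩ ⊓ e.symm ⟨b, hj'⟩ := by simp [m]
          refine ⟨m.val, m.isLt, ?_⟩
          simp only [Bool.and_eq_true, allN_iff, Bool.or_eq_true, Bool.not_eq_true']
          refine ⟨⟨?_, ?_⟩, fun z hz => ?_⟩
          · rw [hR2 _ _ m.isLt hi']
            change e.symm m ≤ _
            rw [hm1]; exact inf_le_left
          · rw [hR2 _ _ m.isLt hj']
            change e.symm m ≤ _
            rw [hm1]; exact inf_le_right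
          · by_cases h : (rB n B z a && rB n B z b) = true
            · right
              rw [Bool.and_eq_true, hR2 _ _ hz hi', hR2 _ _ hz hj'] at h
              rw [hR2 _ _ hz m.isLt]
              change _ ≤ e.symm m
              rw [hm1]
              exact le_inf h.1 h.2
            · left
              simpa using h
        rw [hex] at h1
        exact Bool.noConfusion h1
      · have hk2 : Nat.beq (bits (NTree.get tbl B) 0 3) 2 = false := beq_false k2
        rw [hk2, cond_false] at hE
        have hV := hE
        unfold chkJoin at hV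
        simp only [Bool.and_eq_true, Bool.not_eq_true'] at hV
        obtain ⟨⟨hi, hj⟩, h1⟩ := hV
        have hi' := (Nat.blt_eq ▸ hi : _ < n)
        have hj' := (Nat.blt_eq ▸ hj : _ < n)
        generalize bits (NTree.get tbl B) 2 7 = a at *
        generalize bits (NTree.get tbl B) 5 7 = b at *
        have hex : anyN n (fun m => and (and (rB n B a m) (rB n B b m))
            (allN n (fun z => or (not (and (rB n B a z) (rB n B b z))) (rB n B m z)))) = true := by
          rw [anyN_iff]
          let m := e (e.symm ⟨a, hi'⟩ ⊔ e.symm ⟨b, hj'⟩)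
          have hm1 : e.symm m = e.symm ⟨a, hi'⟩ ⊔ e.symm ⟨b, hj'⟩ := by simp [m]
          refine ⟨m.val, m.isLt, ?_⟩
          simp only [Bool.and_eq_true, allN_iff, Bool.or_eq_true, Bool.not_eq_true']
          refine ⟨⟨?_, ?_⟩, fun z hz => ?_⟩
          · rw [hR2 _ _ hi' m.isLt]
            change _ ≤ e.symm m
            rw [hm1]; exact le_sup_left
          · rw [hR2 _ _ hj' m.isLt]
            change _ ≤ e.symm m
            rw [hm1]; exact le_sup_right
          · by_cases h : (rB n B a z && rB n B b z) = true
            · right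
              rw [Bool.and_eq_true, hR2 _ _ hi' hz, hR2 _ _ hj' hz] at h
              rw [hR2 _ _ m.isLt hz]
              change e.symm m ≤ _
              rw [hm1]
              exact sup_le h.1 h.2
            · left
              simpa using h
        rw [hex] at h1
        exact Bool.noConfusion h1

/-- transport of representability along an order isomorphism -/
theorem Representable.of_iso {L M : Type} [PartialOrder L] [PartialOrder M] (i : L ≃o M)
    (h : Representable M) : Representable L := by
  obtain ⟨A, h1, h2, ops, ⟨j⟩⟩ := h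
  exact ⟨A, h1, h2, ops, ⟨i.trans j⟩⟩

end Vale.Agent.Lib.P183
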